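import Mathlib

namespace Vale.Agent.Lib.P065

open Classical

/-- For a finite set `S` with real keys and a two-colouring `up`, the number of `up` elements
with larger key plus the number of non-`up` elements with smaller key. -/
noncomputable def Wc {α : Type*} (S : Finset α) (key : α → ℝ) (up : α → Prop) (x : α) : ℕ :=
  (S.filter (fun z => up z ∧ key x < key z)).card +
    (S.filter (fun z => ¬ up z ∧ key z < key x)).card

theorem Wc_insert_of_lt {α : Type*} (key : α → ℝ) (up : α → Prop) (s : Finset α) (a : α)
    (has : a ∉ s) (x : α) (hlt : key x < key a) :
    Wc (insert a s) key up x = Wc s key up x + (if up a then 1 else 0) := by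
  unfold Wc
  rw [Finset.filter_insert, Finset.filter_insert]
  have h2 : ¬ (¬ up a ∧ key a < key x) := fun h => absurd h.2 (not_lt.mpr hlt.le)
  rw [if_neg h2]
  by_cases hu : up a
  · have h1 : up a ∧ key x < key a := ⟨hu, hlt⟩
    rw [if_pos h1, if_pos hu, Finset.card_insert_of_notMem]
    · ring
    · intro h
      exact has (Finset.mem_filter.mp h).1
  · have h1 : ¬ (up a ∧ key x < key a) := fun h => hu h.1
    rw [if_neg h1, if_neg hu]
    ring

theorem Wc_insert_self {α : Type*} (key : α → ℝ) (up : α → Prop) (s : Finset α) (a : α)
    (hlt : ∀ x ∈ s, key x < key a) :
    Wc (insert a s) key up a = (s.filter (fun z => ¬ up z)).card := by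
  unfold Wc
  rw [Finset.filter_insert, Finset.filter_insert]
  have h1 : ¬ (up a ∧ key a < key a) := fun h => absurd h.2 (lt_irrefl _)
  have h2 : ¬ (¬ up a ∧ key a < key a) := fun h => absurd h.2 (lt_irrefl _)
  rw [if_neg h1, if_neg h2]
  have e1 : s.filter (fun z => up z ∧ key a < key z) = ∅ := by
    apply Finset.filter_eq_empty_iff.mpr
    intro z hz h
    exact absurd h.2 (not_lt.mpr (hlt z hz).le)
  have e2 : s.filter (fun z => ¬ up z ∧ key z < key a) = s.filter (fun z => ¬ up z) := by
    apply Finset.filter_congr
    intro z hz
    constructor
    · exact fun h => h.1
    · exact fun h => ⟨h, hlt z hz⟩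
  rw [e1, e2]
  simp

theorem crossing_identity {α : Type*} (key : α → ℝ) (up : α → Prop) (S : Finset α) :
    Set.InjOn key S → ∀ m : ℕ,
    (S.filter (fun x => up x ∧ Wc S key up x = m)).card +
        (if m < (S.filter (fun x => ¬ up x)).card then 1 else 0)
      = (S.filter (fun x => ¬ up x ∧ Wc S key up x = m)).card +
        (if m < (S.filter (fun x => up x)).card then 1 else 0) := by
  induction S using Finset.induction_on_max_value key with
  | empty => intro _ m; simp
  | insert a s has hmax ih =>
    intro hinj m
    have hinj' : Set.InjOn key s := hinj.mono (by simp)
    have hlt : ∀ x ∈ s, key x < key a := by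
      intro x hx
      refine lt_of_le_of_ne (hmax x hx) ?_
      intro h
      have := hinj (by simp [hx]) (by simp) h
      exact has (this ▸ hx)
    have hW : ∀ x ∈ s, Wc (insert a s) key up x = Wc s key up x + (if up a then 1 else 0) :=
      fun x hx => Wc_insert_of_lt key up s a has x (hlt x hx)
    have hWa := Wc_insert_self key up s a hlt
    have ih' := ih hinj'
    -- rewrite the filters over `insert a s`
    have hfU : ∀ k : ℕ, (s.filter (fun x => up x ∧ Wc (insert a s) key up x = k)) =
        s.filter (fun x => up x ∧ Wc s key up x + (if up a then 1 else 0) = k) := by
      intro k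
      apply Finset.filter_congr
      intro x hx
      rw [hW x hx]
    have hfL : ∀ k : ℕ, (s.filter (fun x => ¬ up x ∧ Wc (insert a s) key up x = k)) =
        s.filter (fun x => ¬ up x ∧ Wc s key up x + (if up a then 1 else 0) = k) := by
      intro k
      apply Finset.filter_congr
      intro x hx
      rw [hW x hx]
    rw [Finset.filter_insert, Finset.filter_insert, Finset.filter_insert, Finset.filter_insert,
      hfU, hfL, hWa]
    by_cases hu : up a
    · simp only [hu, not_true_eq_false, if_false, if_true, true_and, false_and]
      have hnot : ∀ t : Finset α, a ∉ t.filter (fun x => up x) → True := fun _ _ => trivial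
      rw [Finset.card_insert_of_notMem (s := s.filter (fun x => up x))
        (fun h => has (Finset.mem_filter.mp h).1)]
      cases m with
      | zero =>
        have e1 : s.filter (fun x => up x ∧ Wc s key up x + 1 = 0) = ∅ := by
          apply Finset.filter_eq_empty_iff.mpr
          intro x _ h
          omega
        have e2 : s.filter (fun x => ¬ up x ∧ Wc s key up x + 1 = 0) = ∅ := by
          apply Finset.filter_eq_empty_iff.mpr
          intro x _ h
          omega
        rw [e1, e2]
        by_cases h0 : (s.filter (fun x => ¬ up x)).card = 0
        · simp [h0]
        · have : 0 < (s.filter (fun x => ¬ up x)).card := Nat.pos_of_ne_zero h0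
          simp [h0, this]
      | succ k =>
        have e1 : s.filter (fun x => up x ∧ Wc s key up x + 1 = k + 1) =
            s.filter (fun x => up x ∧ Wc s key up x = k) := by
          apply Finset.filter_congr
          intro x _
          constructor
          · rintro ⟨h1, h2⟩; exact ⟨h1, by omega⟩
          · rintro ⟨h1, h2⟩; exact ⟨h1, by omega⟩
        have e2 : s.filter (fun x => ¬ up x ∧ Wc s key up x + 1 = k + 1) =
            s.filter (fun x => ¬ up x ∧ Wc s key up x = k) := by
          apply Finset.filter_congr
          intro x _
          constructor
          · rintro ⟨h1, h2⟩; exact ⟨h1, by omega⟩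
          · rintro ⟨h1, h2⟩; exact ⟨h1, by omega⟩
        rw [e1, e2]
        have := ih' k
        by_cases h0 : (s.filter (fun x => ¬ up x)).card = k + 1
        · rw [if_pos h0, Finset.card_insert_of_notMem
            (fun h => has (Finset.mem_filter.mp h).1)]
          have hk : k < (s.filter (fun x => ¬ up x)).card := by omega
          rw [if_pos hk] at this
          have hk' : ¬ (k + 1 < (s.filter (fun x => ¬ up x)).card) := by omega
          rw [if_neg hk']
          by_cases h3 : k < (s.filter (fun x => up x)).card
          · rw [if_pos h3] at this
            have : k + 1 < (s.filter (fun x => up x)).card + 1 := by omega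
            rw [if_pos this]
            omega
          · rw [if_neg h3] at this
            have : ¬ (k + 1 < (s.filter (fun x => up x)).card + 1) := by omega
            rw [if_neg this]
            omega
        · rw [if_neg h0]
          by_cases hk : k < (s.filter (fun x => ¬ up x)).card
          · rw [if_pos hk] at this
            have hk' : (k + 1 < (s.filter (fun x => ¬ up x)).card) := by omega
            rw [if_pos hk']
            by_cases h3 : k < (s.filter (fun x => up x)).card
            · rw [if_pos h3] at this
              have : k + 1 < (s.filter (fun x => up x)).card + 1 := by omega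
              rw [if_pos this]
              omega
            · rw [if_neg h3] at this
              have : ¬ (k + 1 < (s.filter (fun x => up x)).card + 1) := by omega
              rw [if_neg this]
              omega
          · rw [if_neg hk] at this
            have hk' : ¬ (k + 1 < (s.filter (fun x => ¬ up x)).card) := by omega
            rw [if_neg hk']
            by_cases h3 : k < (s.filter (fun x => up x)).card
            · rw [if_pos h3] at this
              have : k + 1 < (s.filter (fun x => up x)).card + 1 := by omega
              rw [if_pos this]
              omega
            · rw [if_neg h3] at this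
              have : ¬ (k + 1 < (s.filter (fun x => up x)).card + 1) := by omega
              rw [if_neg this]
              omega
    · simp only [hu, not_false_eq_true, if_false, if_true, true_and, false_and, add_zero]
      rw [Finset.card_insert_of_notMem (s := s.filter (fun x => ¬ up x))
        (fun h => has (Finset.mem_filter.mp h).1)]
      have := ih' m
      by_cases h0 : (s.filter (fun x => ¬ up x)).card = m
      · rw [if_pos h0, Finset.card_insert_of_notMem
            (fun h => has (Finset.mem_filter.mp h).1)]
        have hk : ¬ (m < (s.filter (fun x => ¬ up x)).card) := by omega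
        rw [if_neg hk] at this
        have hk' : (m < (s.filter (fun x => ¬ up x)).card + 1) := by omega
        rw [if_pos hk']
        omega
      · rw [if_neg h0]
        by_cases hk : m < (s.filter (fun x => ¬ up x)).card
        · rw [if_pos hk] at this
          have hk' : (m < (s.filter (fun x => ¬ up x)).card + 1) := by omega
          rw [if_pos hk']
          omega
        · rw [if_neg hk] at this
          have hk' : ¬ (m < (s.filter (fun x => ¬ up x)).card + 1) := by omega
          rw [if_neg hk']
          omega

end Vale.Agent.Lib.P065
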