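import Mathlib

namespace Vale.Agent.Lib.P065

open Classical

/-- Twice the signed area of the triangle `p q r`. It is positive exactly when `r` lies
strictly to the left of the directed line from `p` to `q`, negative when strictly to the
right, and zero when the three points are collinear. -/
def orient (p q r : ℝ × ℝ) : ℝ :=
  (q.1 - p.1) * (r.2 - p.2) - (q.2 - p.2) * (r.1 - p.1)

/-- No three distinct points of `P` are collinear. -/
def NoThreeCollinear (P : Finset (ℝ × ℝ)) : Prop :=
  ∀ p ∈ P, ∀ q ∈ P, ∀ r ∈ P, p ≠ q → p ≠ r → q ≠ r →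
    ¬ Collinear ℝ ({p, q, r} : Set (ℝ × ℝ))

/-- `p` and `q` are distinct points of `P` and the line through them is a halving line:
each of its two open sides contains exactly `(|P| - 2) / 2` points of `P`. -/
def IsHalvingPair (P : Finset (ℝ × ℝ)) (p q : ℝ × ℝ) : Prop :=
  p ∈ P ∧ q ∈ P ∧ p ≠ q ∧
    2 * (P.filter (fun r => 0 < orient p q r)).card + 2 = P.card ∧
    2 * (P.filter (fun r => orient p q r < 0)).card + 2 = P.card

/-- The halving lines of `P`, each recorded as the two-point subset of `P` spanning it. -/
noncomputable def halvingEdges (P : Finset (ℝ × ℝ)) : Finset (Finset (ℝ × ℝ)) :=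
  (P.powersetCard 2).filter (fun e => ∃ p q, e = {p, q} ∧ IsHalvingPair P p q)

end Vale.Agent.Lib.P065
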