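import Mathlib
import Vale.Agent.Lib.P065.Defs
import Vale.Agent.Lib.P065.Crossing

namespace Vale.Agent.Lib.P065

open Classical MeasureTheory

theorem orient_swap (p q r : ℝ × ℝ) : orient q p r = - orient p q r := by
  unfold orient; ring

theorem orient_self_left (p r : ℝ × ℝ) : orient p p r = 0 := by
  unfold orient; ring

theorem orient_self_right (p q : ℝ × ℝ) : orient p q p = 0 := by
  unfold orient; ring

theorem orient_self_mid (p q : ℝ × ℝ) : orient p q q = 0 := by
  unfold orient; ring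

theorem collinear_of_orient_eq_zero (p q r : ℝ × ℝ) (h : orient p q r = 0) :
    Collinear ℝ ({p, q, r} : Set (ℝ × ℝ)) := by
  by_cases hpq : p = q
  · subst hpq
    have : ({p, p, r} : Set (ℝ × ℝ)) = {p, r} := by simp
    rw [this]
    exact collinear_pair ℝ p r
  · rw [collinear_iff_of_mem (p₀ := p) (by simp)]
    refine ⟨q - p, ?_⟩
    intro x hx
    simp only [Set.mem_insert_iff, Set.mem_singleton_iff] at hx
    unfold orient at h
    rcases hx with rfl | rfl | rfl
    · exact ⟨0, by simp⟩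
    · exact ⟨1, by simp⟩
    · by_cases h1 : q.1 = p.1
      · have h2 : q.2 - p.2 ≠ 0 := fun h2 => hpq (Prod.ext h1.symm (by linarith))
        refine ⟨(x.2 - p.2) / (q.2 - p.2), ?_⟩
        have hx1 : x.1 = p.1 := by
          have : (q.2 - p.2) * (x.1 - p.1) = 0 := by
            rw [h1] at h; linarith
          rcases mul_eq_zero.mp this with h3 | h3
          · exact absurd h3 h2
          · linarith
        ext
        · simp [h1, hx1]
        · simp
          field_simp
          ring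
      · have h1' : q.1 - p.1 ≠ 0 := fun h2 => h1 (by linarith)
        refine ⟨(x.1 - p.1) / (q.1 - p.1), ?_⟩
        ext
        · simp
          field_simp
          ring
        · simp
          field_simp
          linarith

theorem orient_ne_zero_of_noThree {P : Finset (ℝ × ℝ)} (hP : NoThreeCollinear P)
    {p q r : ℝ × ℝ} (hp : p ∈ P) (hq : q ∈ P) (hr : r ∈ P) (hpq : p ≠ q) (hpr : p ≠ r)
    (hqr : q ≠ r) : orient p q r ≠ 0 :=
  fun h => hP p hp q hq r hr hpq hpr hqr (collinear_of_orient_eq_zero p q r h)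

theorem exists_generic_separator (S D : Finset (ℝ × ℝ)) (q : ℝ × ℝ) (hqS : q ∉ S)
    (hsep : q ∉ convexHull ℝ (D : Set (ℝ × ℝ))) :
    ∃ a b : ℝ, (∀ p ∈ D, 0 < a * (p.1 - q.1) + b * (p.2 - q.2)) ∧
      (∀ x ∈ S, a * (x.1 - q.1) + b * (x.2 - q.2) ≠ 0) := by
  obtain ⟨f, u, hfq, hfD⟩ := geometric_hahn_banach_point_closed (convex_convexHull ℝ _)
    (D.finite_toSet.isClosed_convexHull ℝ) hsep
  set G : Set (ℝ × ℝ) :=
    ⋂ p ∈ D, {w : ℝ × ℝ | 0 < w.1 * (p.1 - q.1) + w.2 * (p.2 - q.2)} with hG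
  have hGopen : IsOpen G := by
    apply isOpen_biInter_finset
    intro p _
    exact isOpen_lt continuous_const (by fun_prop)
  have hGne : G.Nonempty := by
    refine ⟨(f (1, 0), f (0, 1)), ?_⟩
    simp only [hG, Set.mem_iInter, Set.mem_ofPred_eq]
    intro p hp
    have h1 : u < f p := hfD p (subset_convexHull ℝ _ (by exact_mod_cast hp))
    have h2 : f p - f q = f (1, 0) * (p.1 - q.1) + f (0, 1) * (p.2 - q.2) := by
      have : p - q = (p.1 - q.1) • ((1 : ℝ), (0 : ℝ)) + (p.2 - q.2) • ((0 : ℝ), (1 : ℝ)) := by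
        ext <;> simp
      rw [← map_sub, this, map_add, map_smul, map_smul]
      simp [mul_comm]
    linarith
  set B : Set (ℝ × ℝ) :=
    ⋃ x ∈ (S : Set (ℝ × ℝ)), {w : ℝ × ℝ | w.1 * (x.1 - q.1) + w.2 * (x.2 - q.2) = 0} with hB
  have hBnull : volume B = 0 := by
    rw [hB, measure_biUnion_null_iff S.countable_toSet]
    intro x hx
    let φ : (ℝ × ℝ) →ₗ[ℝ] ℝ :=
      (x.1 - q.1) • LinearMap.fst ℝ ℝ ℝ + (x.2 - q.2) • LinearMap.snd ℝ ℝ ℝ
    have hφ : ({w : ℝ × ℝ | w.1 * (x.1 - q.1) + w.2 * (x.2 - q.2) = 0} : Set (ℝ × ℝ)) =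
        (LinearMap.ker φ : Set (ℝ × ℝ)) := by
      ext w
      simp [φ, mul_comm]
    rw [hφ]
    apply Measure.addHaar_submodule
    intro htop
    rw [LinearMap.ker_eq_top] at htop
    have h0 : φ (x.1 - q.1, x.2 - q.2) = 0 := by rw [htop]; simp
    simp [φ] at h0
    have hx1 : x.1 - q.1 = 0 := by nlinarith [sq_nonneg (x.1 - q.1), sq_nonneg (x.2 - q.2)]
    have hx2 : x.2 - q.2 = 0 := by nlinarith [sq_nonneg (x.1 - q.1), sq_nonneg (x.2 - q.2)]
    have : x = q := Prod.ext (by linarith) (by linarith)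
    exact hqS (this ▸ (Finset.mem_coe.mp hx))
  have hpos : 0 < volume G := hGopen.measure_pos volume hGne
  have hns : ¬ (G ⊆ B) := fun hsub => by
    have := measure_mono (μ := volume) hsub
    rw [hBnull] at this
    exact absurd hpos (not_lt.mpr this)
  obtain ⟨w, hwG, hwB⟩ := Set.not_subset.mp hns
  refine ⟨w.1, w.2, ?_, ?_⟩
  · intro p hp
    simp only [hG, Set.mem_iInter, Set.mem_ofPred_eq] at hwG
    exact hwG p hp
  · intro x hx h0
    apply hwB
    simp only [hB, Set.mem_iUnion, Set.mem_ofPred_eq]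
    exact ⟨x, Finset.mem_coe.mpr hx, h0⟩


/-- first coordinate of `x - q` in the frame given by `(a, b)` -/
def alpha (q : ℝ × ℝ) (a b : ℝ) (x : ℝ × ℝ) : ℝ := a * (x.1 - q.1) + b * (x.2 - q.2)

/-- second coordinate of `x - q` in the frame given by `(a, b)` -/
def beta (q : ℝ × ℝ) (a b : ℝ) (x : ℝ × ℝ) : ℝ := -b * (x.1 - q.1) + a * (x.2 - q.2)

/-- slope-type key of the line through `q` and `x` -/
noncomputable def keyf (q : ℝ × ℝ) (a b : ℝ) (x : ℝ × ℝ) : ℝ := beta q a b x / alpha q a b x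

theorem orient_alpha_beta (q : ℝ × ℝ) (a b : ℝ) (x y : ℝ × ℝ) :
    orient q x y * (a ^ 2 + b ^ 2) =
      alpha q a b x * beta q a b y - beta q a b x * alpha q a b y := by
  unfold orient alpha beta; ring

theorem orient_key (q : ℝ × ℝ) (a b : ℝ) (x y : ℝ × ℝ) (hx : alpha q a b x ≠ 0)
    (hy : alpha q a b y ≠ 0) :
    orient q x y * (a ^ 2 + b ^ 2) =
      alpha q a b x * (alpha q a b y * (keyf q a b y - keyf q a b x)) := by
  rw [orient_alpha_beta]; unfold keyf; field_simp

theorem ab_pos_of_alpha_ne (q : ℝ × ℝ) (a b : ℝ) (x : ℝ × ℝ) (hx : alpha q a b x ≠ 0) :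
    0 < a ^ 2 + b ^ 2 := by
  by_contra h
  have ha : a = 0 := by nlinarith [sq_nonneg a, sq_nonneg b]
  have hb : b = 0 := by nlinarith [sq_nonneg a, sq_nonneg b]
  apply hx
  simp [alpha, ha, hb]

theorem sign_cond (ar d e : ℝ) (har : ar ≠ 0) :
    0 < ar * (d - e) ↔ (0 < ar ∧ e < d) ∨ (¬ 0 < ar ∧ d < e) := by
  rw [mul_pos_iff]
  constructor
  · rintro (⟨h1, h2⟩ | ⟨h1, h2⟩)
    · exact Or.inl ⟨h1, by linarith⟩
    · exact Or.inr ⟨not_lt.mpr h1.le, by linarith⟩
  · rintro (⟨h1, h2⟩ | ⟨h1, h2⟩)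
    · exact Or.inl ⟨h1, by linarith⟩
    · exact Or.inr ⟨lt_of_le_of_ne (not_lt.mp h1) har, by linarith⟩

theorem orient_pos_iff (q : ℝ × ℝ) (a b : ℝ) (x r : ℝ × ℝ) (hx : 0 < alpha q a b x)
    (hr : alpha q a b r ≠ 0) :
    0 < orient q x r ↔ (0 < alpha q a b r ∧ keyf q a b x < keyf q a b r) ∨
      (¬ 0 < alpha q a b r ∧ keyf q a b r < keyf q a b x) := by
  have hab := ab_pos_of_alpha_ne q a b x hx.ne'
  have hk := orient_key q a b x r hx.ne' hr
  rw [← sign_cond _ _ _ hr]
  constructor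
  · intro h
    have h1 : 0 < orient q x r * (a ^ 2 + b ^ 2) := mul_pos h hab
    rw [hk] at h1
    exact (pos_iff_pos_of_mul_pos h1).mp hx
  · intro h
    have h1 : 0 < orient q x r * (a ^ 2 + b ^ 2) := by rw [hk]; exact mul_pos hx h
    exact (pos_iff_pos_of_mul_pos h1).mpr hab

theorem orient_neg_iff (q : ℝ × ℝ) (a b : ℝ) (x r : ℝ × ℝ) (hx : alpha q a b x < 0)
    (hr : alpha q a b r ≠ 0) :
    orient q x r < 0 ↔ (0 < alpha q a b r ∧ keyf q a b x < keyf q a b r) ∨
      (¬ 0 < alpha q a b r ∧ keyf q a b r < keyf q a b x) := by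
  have hab := ab_pos_of_alpha_ne q a b x hx.ne
  have hk := orient_key q a b x r hx.ne hr
  rw [← sign_cond _ _ _ hr]
  constructor
  · intro h
    have h1 : orient q x r * (a ^ 2 + b ^ 2) < 0 := mul_neg_of_neg_of_pos h hab
    rw [hk] at h1
    by_contra hcon
    have : 0 ≤ alpha q a b x * (alpha q a b r * (keyf q a b r - keyf q a b x)) :=
      mul_nonneg_of_nonpos_of_nonpos hx.le (not_lt.mp hcon)
    linarith
  · intro h
    have h1 : orient q x r * (a ^ 2 + b ^ 2) < 0 := by
      rw [hk]; exact mul_neg_of_neg_of_pos hx h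
    by_contra hcon
    have : 0 ≤ orient q x r * (a ^ 2 + b ^ 2) := mul_nonneg (not_lt.mp hcon) hab.le
    linarith

theorem Wc_eq_card_union {α : Type*} (S : Finset α) (key : α → ℝ) (up : α → Prop) (x : α) :
    Wc S key up x =
      (S.filter (fun z => (up z ∧ key x < key z) ∨ (¬ up z ∧ key z < key x))).card := by
  unfold Wc
  rw [Finset.filter_or, Finset.card_union_of_disjoint]
  rw [Finset.disjoint_left]
  intro z hz1 hz2
  exact (Finset.mem_filter.mp hz2).2.1 (Finset.mem_filter.mp hz1).2.1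

theorem side_count (P : Finset (ℝ × ℝ)) (q : ℝ × ℝ) (a b : ℝ)
    (hne : ∀ x ∈ P.erase q, alpha q a b x ≠ 0) (x : ℝ × ℝ) (hx : x ∈ P.erase q) :
    (if 0 < alpha q a b x then (P.filter (fun r => 0 < orient q x r)).card
      else (P.filter (fun r => orient q x r < 0)).card)
      = Wc (P.erase q) (keyf q a b) (fun z => 0 < alpha q a b z) x := by
  rw [Wc_eq_card_union]
  by_cases hup : 0 < alpha q a b x
  · rw [if_pos hup]
    congr 1
    ext r
    simp only [Finset.mem_filter, Finset.mem_erase]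
    constructor
    · rintro ⟨hrP, hpos⟩
      have hrq : r ≠ q := by
        rintro rfl
        rw [orient_self_right] at hpos
        exact lt_irrefl _ hpos
      have hr : alpha q a b r ≠ 0 := hne r (Finset.mem_erase.mpr ⟨hrq, hrP⟩)
      exact ⟨⟨hrq, hrP⟩, (orient_pos_iff q a b x r hup hr).mp hpos⟩
    · rintro ⟨⟨hrq, hrP⟩, hc⟩
      have hr : alpha q a b r ≠ 0 := hne r (Finset.mem_erase.mpr ⟨hrq, hrP⟩)
      exact ⟨hrP, (orient_pos_iff q a b x r hup hr).mpr hc⟩
  · rw [if_neg hup]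
    have hx' : alpha q a b x < 0 := lt_of_le_of_ne (not_lt.mp hup) (hne x hx)
    congr 1
    ext r
    simp only [Finset.mem_filter, Finset.mem_erase]
    constructor
    · rintro ⟨hrP, hneg⟩
      have hrq : r ≠ q := by
        rintro rfl
        rw [orient_self_right] at hneg
        exact lt_irrefl _ hneg
      have hr : alpha q a b r ≠ 0 := hne r (Finset.mem_erase.mpr ⟨hrq, hrP⟩)
      exact ⟨⟨hrq, hrP⟩, (orient_neg_iff q a b x r hx' hr).mp hneg⟩
    · rintro ⟨⟨hrq, hrP⟩, hc⟩
      have hr : alpha q a b r ≠ 0 := hne r (Finset.mem_erase.mpr ⟨hrq, hrP⟩)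
      exact ⟨hrP, (orient_neg_iff q a b x r hx' hr).mpr hc⟩

theorem left_add_right (P : Finset (ℝ × ℝ)) (hP : NoThreeCollinear P) (q x : ℝ × ℝ)
    (hq : q ∈ P) (hx : x ∈ P) (hqx : q ≠ x) :
    (P.filter (fun r => 0 < orient q x r)).card +
      (P.filter (fun r => orient q x r < 0)).card + 2 = P.card := by
  have h0 : P.filter (fun r => orient q x r = 0) = {q, x} := by
    ext r
    simp only [Finset.mem_filter, Finset.mem_insert, Finset.mem_singleton]
    constructor
    · rintro ⟨hr, h0⟩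
      by_contra hcon
      push Not at hcon
      exact orient_ne_zero_of_noThree hP hq hx hr hqx (Ne.symm hcon.1) (Ne.symm hcon.2) h0
    · rintro (rfl | rfl)
      · exact ⟨hq, orient_self_right _ _⟩
      · exact ⟨hx, orient_self_mid _ _⟩
  have h1 := Finset.card_filter_add_card_filter_not (s := P)
    (fun r => 0 < orient q x r)
  have h2 := Finset.card_filter_add_card_filter_not
    (s := P.filter (fun r => ¬ 0 < orient q x r)) (fun r => orient q x r < 0)
  have e1 : (P.filter (fun r => ¬ 0 < orient q x r)).filter (fun r => orient q x r < 0) =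
      P.filter (fun r => orient q x r < 0) := by
    ext r
    simp only [Finset.mem_filter]
    constructor
    · rintro ⟨⟨h, _⟩, h'⟩; exact ⟨h, h'⟩
    · rintro ⟨h, h'⟩; exact ⟨⟨h, not_lt.mpr h'.le⟩, h'⟩
  have e2 : (P.filter (fun r => ¬ 0 < orient q x r)).filter (fun r => ¬ orient q x r < 0) =
      P.filter (fun r => orient q x r = 0) := by
    ext r
    simp only [Finset.mem_filter]
    constructor
    · rintro ⟨⟨h, h1⟩, h2⟩; exact ⟨h, le_antisymm (not_lt.mp h1) (not_lt.mp h2)⟩
    · rintro ⟨h, h'⟩; exact ⟨⟨h, by rw [h']; exact lt_irrefl _⟩, by rw [h']; exact lt_irrefl _⟩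
  rw [e1, e2, h0, Finset.card_pair hqx] at h2
  omega

theorem halving_iff_Wc (P : Finset (ℝ × ℝ)) (hP : NoThreeCollinear P) (q : ℝ × ℝ) (hq : q ∈ P)
    (a b : ℝ) (hne : ∀ x ∈ P.erase q, alpha q a b x ≠ 0) (x : ℝ × ℝ) (hx : x ∈ P.erase q) :
    IsHalvingPair P q x ↔
      2 * Wc (P.erase q) (keyf q a b) (fun z => 0 < alpha q a b z) x + 2 = P.card := by
  have hxP : x ∈ P := (Finset.mem_erase.mp hx).2
  have hqx : q ≠ x := (Finset.mem_erase.mp hx).1.symm
  have hs := side_count P q a b hne x hx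
  have hlr := left_add_right P hP q x hq hxP hqx
  unfold IsHalvingPair
  by_cases hup : 0 < alpha q a b x
  · rw [if_pos hup] at hs
    rw [← hs]
    constructor
    · rintro ⟨_, _, _, h1, _⟩; exact h1
    · intro h1; exact ⟨hq, hxP, hqx, h1, by omega⟩
  · rw [if_neg hup] at hs
    rw [← hs]
    constructor
    · rintro ⟨_, _, _, _, h1⟩; exact h1
    · intro h1; exact ⟨hq, hxP, hqx, by omega, h1⟩

theorem keyf_injOn (P : Finset (ℝ × ℝ)) (hP : NoThreeCollinear P) (q : ℝ × ℝ) (hq : q ∈ P)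
    (a b : ℝ) (hne : ∀ x ∈ P.erase q, alpha q a b x ≠ 0) :
    Set.InjOn (keyf q a b) (P.erase q : Set (ℝ × ℝ)) := by
  intro x hx y hy hxy
  by_contra hcon
  have hx' := Finset.mem_coe.mp hx
  have hy' := Finset.mem_coe.mp hy
  have hk := orient_key q a b x y (hne x hx') (hne y hy')
  rw [hxy, sub_self, mul_zero, mul_zero] at hk
  have hab := ab_pos_of_alpha_ne q a b x (hne x hx')
  have h0 : orient q x y = 0 := by
    rcases mul_eq_zero.mp hk with h | h
    · exact h
    · exact absurd h hab.ne'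
  exact orient_ne_zero_of_noThree hP hq (Finset.mem_erase.mp hx').2 (Finset.mem_erase.mp hy').2
    (Finset.mem_erase.mp hx').1.symm (Finset.mem_erase.mp hy').1.symm hcon h0

/-- Local interlacing: at a point `q`, if the points of `D` are strictly separated from `q`
by a line through `q`, the halving partners of `q` inside `D` are at most one more than those
outside `D`. -/
theorem local_lemma (P : Finset (ℝ × ℝ)) (hP : NoThreeCollinear P) (q : ℝ × ℝ) (hq : q ∈ P)
    (D : Finset (ℝ × ℝ)) (hD : D ⊆ P.erase q) (hsep : q ∉ convexHull ℝ (D : Set (ℝ × ℝ))) :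
    (D.filter (fun p => IsHalvingPair P q p)).card ≤
      ((P.erase q \ D).filter (fun p => IsHalvingPair P q p)).card + 1 := by
  obtain ⟨a, b, hDpos, hne⟩ := exists_generic_separator (P.erase q) D q
    (Finset.notMem_erase q P) hsep
  have hne' : ∀ x ∈ P.erase q, alpha q a b x ≠ 0 := hne
  by_cases hm : ∃ m : ℕ, 2 * m + 2 = P.card
  · obtain ⟨m, hm⟩ := hm
    have hcross := crossing_identity (keyf q a b) (fun z => 0 < alpha q a b z) (P.erase q)
      (keyf_injOn P hP q hq a b hne') m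
    have hsub1 : D.filter (fun p => IsHalvingPair P q p) ⊆
        (P.erase q).filter (fun x => 0 < alpha q a b x ∧
          Wc (P.erase q) (keyf q a b) (fun z => 0 < alpha q a b z) x = m) := by
      intro p hp
      rw [Finset.mem_filter] at hp ⊢
      have hpS := hD hp.1
      refine ⟨hpS, hDpos p hp.1, ?_⟩
      have := (halving_iff_Wc P hP q hq a b hne' p hpS).mp hp.2
      omega
    have hsub2 : (P.erase q).filter (fun x => ¬ 0 < alpha q a b x ∧
          Wc (P.erase q) (keyf q a b) (fun z => 0 < alpha q a b z) x = m) ⊆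
        (P.erase q \ D).filter (fun p => IsHalvingPair P q p) := by
      intro p hp
      rw [Finset.mem_filter] at hp ⊢
      refine ⟨Finset.mem_sdiff.mpr ⟨hp.1, fun hpD => hp.2.1 (hDpos p hpD)⟩, ?_⟩
      apply (halving_iff_Wc P hP q hq a b hne' p hp.1).mpr
      omega
    have c1 := Finset.card_le_card hsub1
    have c2 := Finset.card_le_card hsub2
    have : (if m < ((P.erase q).filter (fun x => 0 < alpha q a b x)).card then 1 else 0) ≤ 1 := by
      split_ifs <;> omega
    omega
  · have : D.filter (fun p => IsHalvingPair P q p) = ∅ := by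
      apply Finset.filter_eq_empty_iff.mpr
      intro p _ hp
      apply hm
      obtain ⟨_, _, _, h1, _⟩ := hp
      exact ⟨_, h1⟩
    rw [this]
    simp

end Vale.Agent.Lib.P065
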