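import Mathlib
import Vale.Agent.Lib.P065.Defs
import Vale.Agent.Lib.P065.Crossing
import Vale.Agent.Lib.P065.Geometry

namespace Vale.Agent.Lib.P065

open Classical

theorem isHalvingPair_symm (P : Finset (ℝ × ℝ)) (p q : ℝ × ℝ) (h : IsHalvingPair P p q) :
    IsHalvingPair P q p := by
  obtain ⟨hp, hq, hpq, h1, h2⟩ := h
  refine ⟨hq, hp, hpq.symm, ?_, ?_⟩
  · have : P.filter (fun r => 0 < orient q p r) = P.filter (fun r => orient p q r < 0) := by
      apply Finset.filter_congr
      intro r _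
      rw [orient_swap]
      constructor <;> intro h <;> linarith
    rw [this]; exact h2
  · have : P.filter (fun r => orient q p r < 0) = P.filter (fun r => 0 < orient p q r) := by
      apply Finset.filter_congr
      intro r _
      rw [orient_swap]
      constructor <;> intro h <;> linarith
    rw [this]; exact h1

theorem isHalvingPair_comm (P : Finset (ℝ × ℝ)) (p q : ℝ × ℝ) :
    IsHalvingPair P p q ↔ IsHalvingPair P q p :=
  ⟨isHalvingPair_symm P p q, isHalvingPair_symm P q p⟩

/-- The number of ordered halving pairs is twice the number of halving lines. -/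
theorem ordered_card (P : Finset (ℝ × ℝ)) :
    ((P ×ˢ P).filter (fun x => IsHalvingPair P x.1 x.2)).card = 2 * (halvingEdges P).card := by
  have hmaps : Set.MapsTo (fun x : (ℝ × ℝ) × (ℝ × ℝ) => ({x.1, x.2} : Finset (ℝ × ℝ)))
      ((P ×ˢ P).filter (fun x => IsHalvingPair P x.1 x.2) : Set ((ℝ × ℝ) × (ℝ × ℝ)))
      (halvingEdges P : Set (Finset (ℝ × ℝ))) := by
    intro x hx
    have hx' := Finset.mem_filter.mp (Finset.mem_coe.mp hx)
    obtain ⟨h1, h2, h3, _, _⟩ := hx'.2
    apply Finset.mem_coe.mpr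
    unfold halvingEdges
    rw [Finset.mem_filter, Finset.mem_powersetCard]
    refine ⟨⟨?_, Finset.card_pair h3⟩, x.1, x.2, rfl, hx'.2⟩
    intro y hy
    rw [Finset.mem_insert, Finset.mem_singleton] at hy
    rcases hy with rfl | rfl
    · exact h1
    · exact h2
  rw [Finset.card_eq_sum_card_fiberwise hmaps]
  have hfib : ∀ e ∈ halvingEdges P,
      (((P ×ˢ P).filter (fun x => IsHalvingPair P x.1 x.2)).filter
        (fun x => ({x.1, x.2} : Finset (ℝ × ℝ)) = e)).card = 2 := by
    intro e he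
    unfold halvingEdges at he
    obtain ⟨p, q, rfl, hpq⟩ := (Finset.mem_filter.mp he).2
    have hne : p ≠ q := hpq.2.2.1
    have : ((P ×ˢ P).filter (fun x => IsHalvingPair P x.1 x.2)).filter
        (fun x => ({x.1, x.2} : Finset (ℝ × ℝ)) = {p, q}) = {(p, q), (q, p)} := by
      ext x
      simp only [Finset.mem_filter, Finset.mem_product, Finset.mem_insert, Finset.mem_singleton]
      constructor
      · rintro ⟨⟨_, hx⟩, hxe⟩
        have hx12 : x.1 ≠ x.2 := hx.2.2.1
        have m1 : x.1 ∈ ({p, q} : Finset (ℝ × ℝ)) := by rw [← hxe]; simp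
        have m2 : x.2 ∈ ({p, q} : Finset (ℝ × ℝ)) := by rw [← hxe]; simp
        rw [Finset.mem_insert, Finset.mem_singleton] at m1 m2
        rcases m1 with m1 | m1 <;> rcases m2 with m2 | m2
        · exact absurd (m1.trans m2.symm) hx12
        · exact Or.inl (Prod.ext m1 m2)
        · exact Or.inr (Prod.ext m1 m2)
        · exact absurd (m1.trans m2.symm) hx12
      · rintro (rfl | rfl)
        · exact ⟨⟨⟨hpq.1, hpq.2.1⟩, hpq⟩, rfl⟩
        · exact ⟨⟨⟨hpq.2.1, hpq.1⟩, isHalvingPair_symm P p q hpq⟩, Finset.pair_comm q p⟩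
    rw [this]
    apply Finset.card_pair
    intro h
    exact hne (congrArg Prod.fst h)
  rw [Finset.sum_congr rfl hfib]
  simp [mul_comm]

/-- Main counting theorem: halving lines of a point set with a valid `L`-layering. -/
theorem layer_bound (P : Finset (ℝ × ℝ)) (hP : NoThreeCollinear P)
    (L : ℕ) (layer : ℝ × ℝ → ℕ) (hL : ∀ q ∈ P, layer q < L)
    (hlayer : ∀ q ∈ P,
      q ∉ convexHull ℝ {p : ℝ × ℝ | p ∈ P ∧ p ≠ q ∧ layer q ≤ layer p}) :
    2 * (halvingEdges P).card + P.card ≤ 2 * ∑ q ∈ P, (L - layer q) := by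
  have hloc : ∀ q ∈ P,
      ((P.filter (fun p => layer q ≤ layer p ∧ IsHalvingPair P q p)).card : ℤ) ≤
        (P.filter (fun p => ¬ layer q ≤ layer p ∧ IsHalvingPair P q p)).card + 1 := by
    intro q hq
    set D := P.filter (fun p => p ≠ q ∧ layer q ≤ layer p) with hDdef
    have hDsub : D ⊆ P.erase q := by
      intro p hp
      rw [hDdef, Finset.mem_filter] at hp
      exact Finset.mem_erase.mpr ⟨hp.2.1, hp.1⟩
    have hsep : q ∉ convexHull ℝ (D : Set (ℝ × ℝ)) := by
      have : (D : Set (ℝ × ℝ)) = {p : ℝ × ℝ | p ∈ P ∧ p ≠ q ∧ layer q ≤ layer p} := by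
        ext p; simp [hDdef]
      rw [this]; exact hlayer q hq
    have h := local_lemma P hP q hq D hDsub hsep
    have e1 : D.filter (fun p => IsHalvingPair P q p) =
        P.filter (fun p => layer q ≤ layer p ∧ IsHalvingPair P q p) := by
      ext p
      simp only [hDdef, Finset.mem_filter]
      constructor
      · rintro ⟨⟨hp, _, hl⟩, hh⟩; exact ⟨hp, hl, hh⟩
      · rintro ⟨hp, hl, hh⟩; exact ⟨⟨hp, hh.2.2.1.symm, hl⟩, hh⟩
    have e2 : (P.erase q \ D).filter (fun p => IsHalvingPair P q p) =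
        P.filter (fun p => ¬ layer q ≤ layer p ∧ IsHalvingPair P q p) := by
      ext p
      simp only [hDdef, Finset.mem_filter, Finset.mem_sdiff, Finset.mem_erase]
      constructor
      · rintro ⟨⟨⟨hpq, hp⟩, hnD⟩, hh⟩
        exact ⟨hp, fun hl => hnD ⟨hp, hpq, hl⟩, hh⟩
      · rintro ⟨hp, hl, hh⟩
        exact ⟨⟨⟨hh.2.2.1.symm, hp⟩, fun hD => hl hD.2.2⟩, hh⟩
    rw [e1, e2] at h
    exact_mod_cast h
  set c : ℝ × ℝ → ℤ := fun q => 2 * ((L : ℤ) - layer q) - 1 with hc
  have hcpos : ∀ q ∈ P, 1 ≤ c q := by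
    intro q hq
    have := hL q hq
    simp only [hc]
    omega
  set e : ℝ × ℝ → ℝ × ℝ → ℤ := fun q p => if IsHalvingPair P q p then 1 else 0 with he
  set g : ℝ × ℝ → ℝ × ℝ → ℤ :=
    fun q p => c q * (if layer q ≤ layer p then 1 else -1) with hg
  have h1 : ∑ q ∈ P, ∑ p ∈ P, e q p * g q p ≤ ∑ q ∈ P, c q := by
    apply Finset.sum_le_sum
    intro q hq
    have hin : ((P.filter (fun p => layer q ≤ layer p ∧ IsHalvingPair P q p)).card : ℤ) =
        ∑ p ∈ P, (if layer q ≤ layer p ∧ IsHalvingPair P q p then (1 : ℤ) else 0) := by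
      rw [Finset.card_filter]; push_cast; rfl
    have hout : ((P.filter (fun p => ¬ layer q ≤ layer p ∧ IsHalvingPair P q p)).card : ℤ) =
        ∑ p ∈ P, (if ¬ layer q ≤ layer p ∧ IsHalvingPair P q p then (1 : ℤ) else 0) := by
      rw [Finset.card_filter]; push_cast; rfl
    have hsum : ∑ p ∈ P, e q p * g q p =
        c q * (∑ p ∈ P, (if layer q ≤ layer p ∧ IsHalvingPair P q p then (1 : ℤ) else 0) -
          ∑ p ∈ P, (if ¬ layer q ≤ layer p ∧ IsHalvingPair P q p then (1 : ℤ) else 0)) := by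
      rw [← Finset.sum_sub_distrib, Finset.mul_sum]
      apply Finset.sum_congr rfl
      intro p _
      simp only [he, hg]
      by_cases hh : IsHalvingPair P q p <;> by_cases hl : layer q ≤ layer p <;> simp [hh, hl]
    rw [hsum, ← hin, ← hout]
    have := hloc q hq
    have hc1 := hcpos q hq
    nlinarith
  have hsymm : ∑ q ∈ P, ∑ p ∈ P, e q p * g q p = ∑ q ∈ P, ∑ p ∈ P, e q p * g p q := by
    rw [Finset.sum_comm]
    apply Finset.sum_congr rfl
    intro q _
    apply Finset.sum_congr rfl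
    intro p _
    simp only [he]
    rw [isHalvingPair_comm]
  have h2 : ∑ q ∈ P, ∑ p ∈ P, e q p * 2 ≤
      ∑ q ∈ P, ∑ p ∈ P, (e q p * g q p + e q p * g p q) := by
    apply Finset.sum_le_sum; intro q hq
    apply Finset.sum_le_sum; intro p hp
    have hgg : 2 ≤ g q p + g p q := by
      simp only [hg, hc]
      have := hL q hq
      have := hL p hp
      by_cases h1 : layer q ≤ layer p <;> by_cases h2 : layer p ≤ layer q <;>
        simp [h1, h2] <;> omega
    have he0 : 0 ≤ e q p := by simp only [he]; split_ifs <;> norm_num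
    nlinarith
  have h3 : ∑ q ∈ P, ∑ p ∈ P, (e q p * g q p + e q p * g p q) =
      2 * ∑ q ∈ P, ∑ p ∈ P, e q p * g q p := by
    simp only [Finset.sum_add_distrib]
    rw [← hsymm]; ring
  have h4 : ∑ q ∈ P, ∑ p ∈ P, e q p * 2 = 2 * ∑ q ∈ P, ∑ p ∈ P, e q p := by
    simp only [← Finset.sum_mul]; ring
  have h5 : ∑ q ∈ P, ∑ p ∈ P, e q p = (2 * (halvingEdges P).card : ℕ) := by
    rw [← ordered_card, Finset.card_filter, Finset.sum_product]
    push_cast
    rfl
  have h6 : ∑ q ∈ P, c q = 2 * ((∑ q ∈ P, (L - layer q) : ℕ) : ℤ) - (P.card : ℤ) := by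
    simp only [hc]
    rw [Finset.sum_sub_distrib, ← Finset.mul_sum]
    simp only [Finset.sum_const, nsmul_eq_mul, mul_one]
    congr 2
    push_cast
    apply Finset.sum_congr rfl
    intro q hq
    have := hL q hq
    rw [Nat.cast_sub this.le]
  have hfinal : (2 * (halvingEdges P).card : ℤ) ≤
      2 * ((∑ q ∈ P, (L - layer q) : ℕ) : ℤ) - (P.card : ℤ) := by
    rw [← h6]
    have : (2 * (halvingEdges P).card : ℤ) = ∑ q ∈ P, ∑ p ∈ P, e q p := by
      rw [h5]; push_cast; ring
    rw [this]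
    linarith
  have : (2 * (halvingEdges P).card + P.card : ℤ) ≤ 2 * ((∑ q ∈ P, (L - layer q) : ℕ) : ℤ) := by
    linarith
  exact_mod_cast this

end Vale.Agent.Lib.P065
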