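import Mathlib
import Vale.Agent.Lib.P065.Defs

namespace Vale.Agent.Lib.P065

open Classical

/-- `S` is a `k`-set of `P`: a `k`-element subset of `P` that some line strictly separates
from `P \ S` (the line is `a x + b y = c`). -/
def IsKSet (P : Finset (ℝ × ℝ)) (k : ℕ) (S : Finset (ℝ × ℝ)) : Prop :=
  S ⊆ P ∧ S.card = k ∧
    ∃ a b c : ℝ, (a ≠ 0 ∨ b ≠ 0) ∧ (∀ p ∈ S, a * p.1 + b * p.2 < c) ∧
      (∀ p ∈ P \ S, c < a * p.1 + b * p.2)

/-- The `k`-sets of `P`. -/
noncomputable def kSets (P : Finset (ℝ × ℝ)) (k : ℕ) : Finset (Finset (ℝ × ℝ)) :=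
  (P.powersetCard k).filter (fun S => IsKSet P k S)

/-- The directed `j`-edges of `P`: ordered pairs `(p, q)` of distinct points of `P` such that
exactly `j` points of `P` lie strictly to the left of the directed line from `p` to `q`. -/
noncomputable def dirEdges (P : Finset (ℝ × ℝ)) (j : ℕ) : Finset ((ℝ × ℝ) × (ℝ × ℝ)) :=
  (P ×ˢ P).filter (fun x => x.1 ≠ x.2 ∧ (P.filter (fun r => 0 < orient x.1 x.2 r)).card = j)

end Vale.Agent.Lib.P065
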