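import Mathlib
import Vale.Agent.Lib.P065.Defs
import Vale.Agent.Lib.P065.KDefs
import Vale.Agent.Lib.P065.Crossing
import Vale.Agent.Lib.P065.Geometry

namespace Vale.Agent.Lib.P065

open Classical

/-- number of points of `P` strictly left of the directed line `p q` -/
noncomputable def leftCount (P : Finset (ℝ × ℝ)) (p q : ℝ × ℝ) : ℕ :=
  (P.filter (fun r => 0 < orient p q r)).card

theorem leftCount_rev (P : Finset (ℝ × ℝ)) (p q : ℝ × ℝ) :
    leftCount P p q = (P.filter (fun r => orient q p r < 0)).card := by
  unfold leftCount
  congr 1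
  apply Finset.filter_congr
  intro r _
  rw [orient_swap q p r]
  constructor <;> intro h <;> linarith

theorem leftCount_out (P : Finset (ℝ × ℝ)) (hP : NoThreeCollinear P) (q : ℝ × ℝ) (hq : q ∈ P)
    (a b : ℝ) (hne : ∀ x ∈ P.erase q, alpha q a b x ≠ 0) (x : ℝ × ℝ) (hx : x ∈ P.erase q) :
    (0 < alpha q a b x →
        leftCount P q x = Wc (P.erase q) (keyf q a b) (fun z => 0 < alpha q a b z) x ∧
        leftCount P x q + Wc (P.erase q) (keyf q a b) (fun z => 0 < alpha q a b z) x + 2
          = P.card) ∧
    (¬ 0 < alpha q a b x →
        leftCount P x q = Wc (P.erase q) (keyf q a b) (fun z => 0 < alpha q a b z) x ∧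
        leftCount P q x + Wc (P.erase q) (keyf q a b) (fun z => 0 < alpha q a b z) x + 2
          = P.card) := by
  have hxP : x ∈ P := (Finset.mem_erase.mp hx).2
  have hqx : q ≠ x := (Finset.mem_erase.mp hx).1.symm
  have hs := side_count P q a b hne x hx
  have hlr := left_add_right P hP q x hq hxP hqx
  have hrev := leftCount_rev P x q
  constructor
  · intro hup
    rw [if_pos hup] at hs
    unfold leftCount at hrev ⊢
    constructor
    · exact hs
    · rw [hrev, ← hs]; omega
  · intro hup
    rw [if_neg hup] at hs
    unfold leftCount at hrev ⊢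
    constructor
    · rw [hrev]; exact hs
    · rw [← hs]; omega

/-- Local interlacing for directed `j`-edges at a point `q`. -/
theorem local_lemma_dir (P : Finset (ℝ × ℝ)) (hP : NoThreeCollinear P) (q : ℝ × ℝ) (hq : q ∈ P)
    (D : Finset (ℝ × ℝ)) (hD : D ⊆ P.erase q) (hsep : q ∉ convexHull ℝ (D : Set (ℝ × ℝ)))
    (j : ℕ) :
    (D.filter (fun p => leftCount P q p = j)).card ≤
        ((P.erase q \ D).filter (fun p => leftCount P p q = j)).card + 1 ∧
    (D.filter (fun p => leftCount P p q = j)).card ≤
        ((P.erase q \ D).filter (fun p => leftCount P q p = j)).card + 1 := by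
  obtain ⟨a, b, hDpos, hne⟩ := exists_generic_separator (P.erase q) D q
    (Finset.notMem_erase q P) hsep
  have hne' : ∀ x ∈ P.erase q, alpha q a b x ≠ 0 := hne
  have hinj := keyf_injOn P hP q hq a b hne'
  constructor
  · have hcross := crossing_identity (keyf q a b) (fun z => 0 < alpha q a b z) (P.erase q) hinj j
    have hsub1 : D.filter (fun p => leftCount P q p = j) ⊆
        (P.erase q).filter (fun x => 0 < alpha q a b x ∧
          Wc (P.erase q) (keyf q a b) (fun z => 0 < alpha q a b z) x = j) := by
      intro p hp
      rw [Finset.mem_filter] at hp ⊢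
      have hpS := hD hp.1
      have hup := hDpos p hp.1
      have h := ((leftCount_out P hP q hq a b hne' p hpS).1 hup).1
      exact ⟨hpS, hup, by rw [← h]; exact hp.2⟩
    have hsub2 : (P.erase q).filter (fun x => ¬ 0 < alpha q a b x ∧
          Wc (P.erase q) (keyf q a b) (fun z => 0 < alpha q a b z) x = j) ⊆
        (P.erase q \ D).filter (fun p => leftCount P p q = j) := by
      intro p hp
      rw [Finset.mem_filter] at hp ⊢
      refine ⟨Finset.mem_sdiff.mpr ⟨hp.1, fun hpD => hp.2.1 (hDpos p hpD)⟩, ?_⟩
      have h := ((leftCount_out P hP q hq a b hne' p hp.1).2 hp.2.1).1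
      rw [h]; exact hp.2.2
    have c1 := Finset.card_le_card hsub1
    have c2 := Finset.card_le_card hsub2
    have : (if j < ((P.erase q).filter (fun x => 0 < alpha q a b x)).card then 1 else 0) ≤ 1 := by
      split_ifs <;> omega
    omega
  · by_cases hj : j + 2 ≤ P.card
    · obtain ⟨m, hm⟩ : ∃ m : ℕ, m + j + 2 = P.card := ⟨P.card - 2 - j, by omega⟩
      have hcross := crossing_identity (keyf q a b) (fun z => 0 < alpha q a b z) (P.erase q)
        hinj m
      have hsub1 : D.filter (fun p => leftCount P p q = j) ⊆
          (P.erase q).filter (fun x => 0 < alpha q a b x ∧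
            Wc (P.erase q) (keyf q a b) (fun z => 0 < alpha q a b z) x = m) := by
        intro p hp
        rw [Finset.mem_filter] at hp ⊢
        have hpS := hD hp.1
        have hup := hDpos p hp.1
        have h := ((leftCount_out P hP q hq a b hne' p hpS).1 hup).2
        refine ⟨hpS, hup, ?_⟩
        have := hp.2
        omega
      have hsub2 : (P.erase q).filter (fun x => ¬ 0 < alpha q a b x ∧
            Wc (P.erase q) (keyf q a b) (fun z => 0 < alpha q a b z) x = m) ⊆
          (P.erase q \ D).filter (fun p => leftCount P q p = j) := by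
        intro p hp
        rw [Finset.mem_filter] at hp ⊢
        refine ⟨Finset.mem_sdiff.mpr ⟨hp.1, fun hpD => hp.2.1 (hDpos p hpD)⟩, ?_⟩
        have h := ((leftCount_out P hP q hq a b hne' p hp.1).2 hp.2.1).2
        have := hp.2.2
        omega
      have c1 := Finset.card_le_card hsub1
      have c2 := Finset.card_le_card hsub2
      have : (if m < ((P.erase q).filter (fun x => 0 < alpha q a b x)).card then 1 else 0) ≤ 1 := by
        split_ifs <;> omega
      omega
    · have : D.filter (fun p => leftCount P p q = j) = ∅ := by
        apply Finset.filter_eq_empty_iff.mpr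
        intro p hpD hp
        have hpS := hD hpD
        rcases lt_or_ge 0 (alpha q a b p) with hup | hup
        · have h := ((leftCount_out P hP q hq a b hne' p hpS).1 hup).2
          omega
        · have h := ((leftCount_out P hP q hq a b hne' p hpS).2 (not_lt.mpr hup)).1
          have h2 := ((leftCount_out P hP q hq a b hne' p hpS).2 (not_lt.mpr hup)).2
          omega
      rw [this]
      simp

end Vale.Agent.Lib.P065
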