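import Mathlib
import Vale.Agent.Lib.P065.Defs
import Vale.Agent.Lib.P065.KDefs
import Vale.Agent.Lib.P065.Crossing
import Vale.Agent.Lib.P065.Geometry
import Vale.Agent.Lib.P065.KSet

namespace Vale.Agent.Lib.P065

open Classical

/-- Abstract weighted double count over a layered finite set. -/
theorem weighted_count {α : Type*} (P : Finset α) (L : ℕ) (layer : α → ℕ)
    (hL : ∀ q ∈ P, layer q < L) (e : α → α → ℤ) (hsymm : ∀ q p, e q p = e p q)
    (hnn : ∀ q p, 0 ≤ e q p) (B : ℤ)
    (hloc : ∀ q ∈ P, ∑ p ∈ P, (if layer q ≤ layer p then e q p else 0) ≤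
        ∑ p ∈ P, (if layer q ≤ layer p then 0 else e q p) + B) :
    ∑ q ∈ P, ∑ p ∈ P, e q p ≤ B * ∑ q ∈ P, (2 * ((L : ℤ) - layer q) - 1) := by
  set c : α → ℤ := fun q => 2 * ((L : ℤ) - layer q) - 1 with hc
  have hcpos : ∀ q ∈ P, 1 ≤ c q := by
    intro q hq
    have := hL q hq
    simp only [hc]
    omega
  set g : α → α → ℤ :=
    fun q p => c q * (if layer q ≤ layer p then 1 else -1) with hg
  have h1 : ∑ q ∈ P, ∑ p ∈ P, e q p * g q p ≤ ∑ q ∈ P, B * c q := by
    apply Finset.sum_le_sum
    intro q hq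
    have hsum : ∑ p ∈ P, e q p * g q p =
        c q * (∑ p ∈ P, (if layer q ≤ layer p then e q p else 0) -
          ∑ p ∈ P, (if layer q ≤ layer p then 0 else e q p)) := by
      rw [← Finset.sum_sub_distrib, Finset.mul_sum]
      apply Finset.sum_congr rfl
      intro p _
      simp only [hg]
      by_cases hl : layer q ≤ layer p <;> simp [hl] <;> ring
    rw [hsum]
    have := hloc q hq
    have hc1 := hcpos q hq
    nlinarith
  have hsw : ∑ q ∈ P, ∑ p ∈ P, e q p * g q p = ∑ q ∈ P, ∑ p ∈ P, e q p * g p q := by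
    rw [Finset.sum_comm]
    apply Finset.sum_congr rfl
    intro q _
    apply Finset.sum_congr rfl
    intro p _
    rw [hsymm]
  have h2 : ∑ q ∈ P, ∑ p ∈ P, e q p * 2 ≤
      ∑ q ∈ P, ∑ p ∈ P, (e q p * g q p + e q p * g p q) := by
    apply Finset.sum_le_sum; intro q hq
    apply Finset.sum_le_sum; intro p hp
    have hgg : 2 ≤ g q p + g p q := by
      simp only [hg, hc]
      have := hL q hq
      have := hL p hp
      by_cases h1 : layer q ≤ layer p <;> by_cases h2 : layer p ≤ layer q <;>
        simp [h1, h2] <;> omega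
    have he0 := hnn q p
    nlinarith
  have h3 : ∑ q ∈ P, ∑ p ∈ P, (e q p * g q p + e q p * g p q) =
      2 * ∑ q ∈ P, ∑ p ∈ P, e q p * g q p := by
    simp only [Finset.sum_add_distrib]
    rw [← hsw]; ring
  have h4 : ∑ q ∈ P, ∑ p ∈ P, e q p * 2 = 2 * ∑ q ∈ P, ∑ p ∈ P, e q p := by
    simp only [← Finset.sum_mul]; ring
  have h5 : ∑ q ∈ P, B * c q = B * ∑ q ∈ P, c q := by rw [Finset.mul_sum]
  linarith

/-- Directed `j`-edges of a point set with a valid `L`-layering. -/
theorem dir_edge_bound (P : Finset (ℝ × ℝ)) (hP : NoThreeCollinear P)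
    (L : ℕ) (layer : ℝ × ℝ → ℕ) (hL : ∀ q ∈ P, layer q < L)
    (hlayer : ∀ q ∈ P,
      q ∉ convexHull ℝ {p : ℝ × ℝ | p ∈ P ∧ p ≠ q ∧ layer q ≤ layer p}) (j : ℕ) :
    (dirEdges P j).card + P.card ≤ 2 * ∑ q ∈ P, (L - layer q) := by
  set e1 : ℝ × ℝ → ℝ × ℝ → ℤ :=
    fun q p => if q ≠ p ∧ leftCount P q p = j then 1 else 0 with he1
  set e : ℝ × ℝ → ℝ × ℝ → ℤ := fun q p => e1 q p + e1 p q with he
  have hsymm : ∀ q p, e q p = e p q := fun q p => by simp only [he]; ring
  have he1nn : ∀ q p, 0 ≤ e1 q p := fun q p => by simp only [he1]; split_ifs <;> norm_num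
  have hnn : ∀ q p, 0 ≤ e q p := fun q p => by
    simp only [he]; have := he1nn q p; have := he1nn p q; linarith
  have hloc : ∀ q ∈ P, ∑ p ∈ P, (if layer q ≤ layer p then e q p else 0) ≤
      ∑ p ∈ P, (if layer q ≤ layer p then 0 else e q p) + 2 := by
    intro q hq
    set D := P.filter (fun p => p ≠ q ∧ layer q ≤ layer p) with hDdef
    have hDsub : D ⊆ P.erase q := by
      intro p hp
      rw [hDdef, Finset.mem_filter] at hp
      exact Finset.mem_erase.mpr ⟨hp.2.1, hp.1⟩
    have hsep : q ∉ convexHull ℝ (D : Set (ℝ × ℝ)) := by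
      have : (D : Set (ℝ × ℝ)) = {p : ℝ × ℝ | p ∈ P ∧ p ≠ q ∧ layer q ≤ layer p} := by
        ext p; simp [hDdef]
      rw [this]; exact hlayer q hq
    obtain ⟨hA, hB⟩ := local_lemma_dir P hP q hq D hDsub hsep j
    have s1 : ∑ p ∈ P, (if layer q ≤ layer p then e q p else 0) =
        ((D.filter (fun p => leftCount P q p = j)).card : ℤ) +
          (D.filter (fun p => leftCount P p q = j)).card := by
      rw [Finset.card_filter, Finset.card_filter]
      push_cast
      rw [hDdef, Finset.sum_filter, Finset.sum_filter, ← Finset.sum_add_distrib]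
      apply Finset.sum_congr rfl
      intro p _
      simp only [he, he1]
      by_cases hpq : p = q
      · subst hpq; simp
      · have hqp : q ≠ p := fun h => hpq h.symm
        by_cases hl : layer q ≤ layer p <;> simp [hpq, hqp, hl]
    have s2 : ∑ p ∈ P, (if layer q ≤ layer p then 0 else e q p) =
        (((P.erase q \ D).filter (fun p => leftCount P p q = j)).card : ℤ) +
          ((P.erase q \ D).filter (fun p => leftCount P q p = j)).card := by
      rw [Finset.card_filter, Finset.card_filter]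
      push_cast
      have hED : P.erase q \ D = P.filter (fun p => ¬ layer q ≤ layer p) := by
        ext p
        simp only [hDdef, Finset.mem_filter, Finset.mem_sdiff, Finset.mem_erase]
        constructor
        · rintro ⟨⟨hpq, hp⟩, hnD⟩
          exact ⟨hp, fun hl => hnD ⟨hp, hpq, hl⟩⟩
        · rintro ⟨hp, hl⟩
          refine ⟨⟨?_, hp⟩, fun hD => hl hD.2.2⟩
          rintro rfl
          exact hl le_rfl
      rw [hED, Finset.sum_filter, Finset.sum_filter, ← Finset.sum_add_distrib]
      apply Finset.sum_congr rfl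
      intro p _
      simp only [he, he1]
      by_cases hl : layer q ≤ layer p
      · simp [hl]
      · have hpq : p ≠ q := by rintro rfl; exact hl le_rfl
        have hqp : q ≠ p := fun h => hpq h.symm
        simp [hl, hpq, hqp, add_comm]
    rw [s1, s2]
    have hA' : ((D.filter (fun p => leftCount P q p = j)).card : ℤ) ≤
        ((P.erase q \ D).filter (fun p => leftCount P p q = j)).card + 1 := by exact_mod_cast hA
    have hB' : ((D.filter (fun p => leftCount P p q = j)).card : ℤ) ≤
        ((P.erase q \ D).filter (fun p => leftCount P q p = j)).card + 1 := by exact_mod_cast hB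
    linarith
  have hw := weighted_count P L layer hL e hsymm hnn 2 hloc
  have hcard : ∑ q ∈ P, ∑ p ∈ P, e1 q p = ((dirEdges P j).card : ℤ) := by
    unfold dirEdges
    rw [Finset.card_filter, Finset.sum_product]
    push_cast
    rfl
  have htot : ∑ q ∈ P, ∑ p ∈ P, e q p = 2 * ((dirEdges P j).card : ℤ) := by
    simp only [he, Finset.sum_add_distrib]
    rw [Finset.sum_comm (f := fun q p => e1 p q), hcard]
    ring
  have h6 : ∑ q ∈ P, (2 * ((L : ℤ) - layer q) - 1) =
      2 * ((∑ q ∈ P, (L - layer q) : ℕ) : ℤ) - (P.card : ℤ) := by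
    rw [Finset.sum_sub_distrib, ← Finset.mul_sum]
    simp only [Finset.sum_const, nsmul_eq_mul, mul_one]
    congr 2
    push_cast
    apply Finset.sum_congr rfl
    intro q hq
    have := hL q hq
    rw [Nat.cast_sub this.le]
  rw [htot, h6] at hw
  have : ((dirEdges P j).card + P.card : ℤ) ≤ 2 * ((∑ q ∈ P, (L - layer q) : ℕ) : ℤ) := by
    linarith
  exact_mod_cast this

end Vale.Agent.Lib.P065
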