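import Mathlib
import Vale.Agent.Lib.P065.Defs
import Vale.Agent.Lib.P065.KDefs
import Vale.Agent.Lib.P065.Crossing
import Vale.Agent.Lib.P065.Geometry
import Vale.Agent.Lib.P065.KSet
import Vale.Agent.Lib.P065.KGlobal

namespace Vale.Agent.Lib.P065

open Classical

theorem orient_two_base (a b : ℝ) (s t s' : ℝ × ℝ) :
    orient s t s' * (a ^ 2 + b ^ 2) =
      beta s a b t * alpha s' a b t - alpha s a b t * beta s' a b t := by
  unfold orient alpha beta; ring

/-- A separating common tangent of a `k`-set and its complement. -/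
theorem exists_bitangent (P : Finset (ℝ × ℝ)) (hP : NoThreeCollinear P) (S : Finset (ℝ × ℝ))
    (hS : S ⊆ P) (hSne : S.Nonempty) (hTne : (P \ S).Nonempty) (a b c : ℝ) (hab : a ≠ 0 ∨ b ≠ 0)
    (h1 : ∀ p ∈ S, a * p.1 + b * p.2 < c) (h2 : ∀ p ∈ P \ S, c < a * p.1 + b * p.2) :
    ∃ s ∈ S, ∃ t ∈ P \ S, (∀ s' ∈ S, s' ≠ s → 0 < orient s t s') ∧
      (∀ t' ∈ P \ S, t' ≠ t → orient s t t' < 0) := by
  have hab2 : 0 < a ^ 2 + b ^ 2 := by
    rcases hab with h | h
    · have := sq_pos_of_ne_zero h; nlinarith [sq_nonneg b]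
    · have := sq_pos_of_ne_zero h; nlinarith [sq_nonneg a]
  have hpos : ∀ s ∈ S, ∀ t ∈ P \ S, 0 < alpha s a b t := by
    intro s hs t ht
    have := h1 s hs
    have := h2 t ht
    unfold alpha
    nlinarith
  obtain ⟨x, hx, hmax⟩ := Finset.exists_max_image (S ×ˢ (P \ S))
    (fun x => keyf x.1 a b x.2) (Finset.Nonempty.product hSne hTne)
  obtain ⟨hsS, htT⟩ := Finset.mem_product.mp hx
  refine ⟨x.1, hsS, x.2, htT, ?_, ?_⟩
  · intro s' hs' hne
    have hm := hmax (s', x.2) (Finset.mem_product.mpr ⟨hs', htT⟩)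
    simp only [keyf] at hm
    have hp1 := hpos s' hs' x.2 htT
    have hp2 := hpos x.1 hsS x.2 htT
    rw [div_le_div_iff₀ hp1 hp2] at hm
    have hid := orient_two_base a b x.1 x.2 s'
    have hge : 0 ≤ orient x.1 x.2 s' * (a ^ 2 + b ^ 2) := by rw [hid]; linarith
    have hge' : 0 ≤ orient x.1 x.2 s' := by
      by_contra hcon
      have : orient x.1 x.2 s' * (a ^ 2 + b ^ 2) < 0 :=
        mul_neg_of_neg_of_pos (not_le.mp hcon) hab2
      linarith
    have htP : x.2 ∈ P := (Finset.mem_sdiff.mp htT).1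
    have hst : x.1 ≠ x.2 := fun h => (Finset.mem_sdiff.mp htT).2 (h ▸ hsS)
    have hts' : x.2 ≠ s' := fun h => (Finset.mem_sdiff.mp htT).2 (h ▸ hs')
    have hnz := orient_ne_zero_of_noThree hP (hS hsS) htP (hS hs') hst (Ne.symm hne) hts'
    exact lt_of_le_of_ne hge' (Ne.symm hnz)
  · intro t' ht' hne
    have hm := hmax (x.1, t') (Finset.mem_product.mpr ⟨hsS, ht'⟩)
    simp only [keyf] at hm
    have hp1 := hpos x.1 hsS t' ht'
    have hp2 := hpos x.1 hsS x.2 htT
    rw [div_le_div_iff₀ hp1 hp2] at hm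
    have hid := orient_alpha_beta x.1 a b x.2 t'
    have hle : orient x.1 x.2 t' * (a ^ 2 + b ^ 2) ≤ 0 := by rw [hid]; linarith
    have hle' : orient x.1 x.2 t' ≤ 0 := by
      by_contra hcon
      have : 0 < orient x.1 x.2 t' * (a ^ 2 + b ^ 2) := mul_pos (not_le.mp hcon) hab2
      linarith
    have htP : x.2 ∈ P := (Finset.mem_sdiff.mp htT).1
    have ht'P : t' ∈ P := (Finset.mem_sdiff.mp ht').1
    have hst : x.1 ≠ x.2 := fun h => (Finset.mem_sdiff.mp htT).2 (h ▸ hsS)
    have hst' : x.1 ≠ t' := fun h => (Finset.mem_sdiff.mp ht').2 (h ▸ hsS)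
    have hnz := orient_ne_zero_of_noThree hP (hS hsS) htP ht'P hst hst' (Ne.symm hne)
    exact lt_of_le_of_ne hle' hnz

/-- The number of `k`-sets is at most the number of directed `(k-1)`-edges. -/
theorem kSets_card_le (P : Finset (ℝ × ℝ)) (hP : NoThreeCollinear P) (k : ℕ) (hk1 : 1 ≤ k)
    (hk2 : k < P.card) : (kSets P k).card ≤ (dirEdges P (k - 1)).card := by
  apply Finset.card_le_card_of_forall_subsingleton
    (fun (S : Finset (ℝ × ℝ)) (x : (ℝ × ℝ) × (ℝ × ℝ)) =>
      S = insert x.1 (P.filter (fun r => 0 < orient x.1 x.2 r)))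
  · intro S hSk
    unfold kSets at hSk
    obtain ⟨hSp, hSset⟩ := Finset.mem_filter.mp hSk
    obtain ⟨hSP, hcard⟩ := Finset.mem_powersetCard.mp hSp
    obtain ⟨_, _, a, b, c, hab, h1, h2⟩ := hSset
    have hSne : S.Nonempty := Finset.card_pos.mp (by omega)
    have hTne : (P \ S).Nonempty := by
      rw [← Finset.card_pos, Finset.card_sdiff_of_subset hSP]
      omega
    obtain ⟨s, hs, t, ht, hl, hr⟩ := exists_bitangent P hP S hSP hSne hTne a b c hab h1 h2
    have htP : t ∈ P := (Finset.mem_sdiff.mp ht).1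
    have htS : t ∉ S := (Finset.mem_sdiff.mp ht).2
    have hst : s ≠ t := fun h => htS (h ▸ hs)
    have hfil : P.filter (fun r => 0 < orient s t r) = S.erase s := by
      ext r
      simp only [Finset.mem_filter, Finset.mem_erase]
      constructor
      · rintro ⟨hrP, hpos⟩
        have hrs : r ≠ s := by
          rintro rfl
          rw [orient_self_right] at hpos
          exact lt_irrefl _ hpos
        refine ⟨hrs, ?_⟩
        by_contra hrS
        have hrT : r ∈ P \ S := Finset.mem_sdiff.mpr ⟨hrP, hrS⟩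
        by_cases hrt : r = t
        · rw [hrt, orient_self_mid] at hpos
          exact lt_irrefl _ hpos
        · have := hr r hrT hrt
          linarith
      · rintro ⟨hrs, hrS⟩
        exact ⟨hSP hrS, hl r hrS hrs⟩
    refine ⟨(s, t), ?_, ?_⟩
    · unfold dirEdges
      rw [Finset.mem_filter, Finset.mem_product]
      refine ⟨⟨hSP hs, htP⟩, hst, ?_⟩
      simp only
      rw [hfil, Finset.card_erase_of_mem hs, hcard]
    · simp only
      rw [hfil, Finset.insert_erase hs]
  · intro x _ S1 h1 S2 h2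
    simp only [Set.mem_ofPred_eq] at h1 h2
    rw [h1.2, h2.2]

/-- `k`-sets of a point set with a valid `L`-layering. -/
theorem kset_layer_bound (P : Finset (ℝ × ℝ)) (hP : NoThreeCollinear P)
    (L : ℕ) (layer : ℝ × ℝ → ℕ) (hL : ∀ q ∈ P, layer q < L)
    (hlayer : ∀ q ∈ P,
      q ∉ convexHull ℝ {p : ℝ × ℝ | p ∈ P ∧ p ≠ q ∧ layer q ≤ layer p})
    (k : ℕ) (hk1 : 1 ≤ k) (hk2 : k < P.card) :
    (kSets P k).card + P.card ≤ 2 * ∑ q ∈ P, (L - layer q) := by
  have h1 := kSets_card_le P hP k hk1 hk2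
  have h2 := dir_edge_bound P hP L layer hL hlayer (k - 1)
  omega

end Vale.Agent.Lib.P065
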