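import Mathlib
import Vale.Agent.Lib.P065.Defs
import Vale.Agent.Lib.P065.Geometry

namespace Vale.Agent.Lib.P065

open Classical

/-- Collinear triples have vanishing orientation determinant. -/
theorem orient_eq_zero_of_collinear (p q r : ℝ × ℝ)
    (h : Collinear ℝ ({p, q, r} : Set (ℝ × ℝ))) : orient p q r = 0 := by
  rw [collinear_iff_of_mem (p₀ := p) (by simp)] at h
  obtain ⟨v, hv⟩ := h
  obtain ⟨s, hs⟩ := hv q (by simp)
  obtain ⟨t, ht⟩ := hv r (by simp)
  have hq1 : q.1 = s * v.1 + p.1 := by rw [hs]; simp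
  have hq2 : q.2 = s * v.2 + p.2 := by rw [hs]; simp
  have hr1 : r.1 = t * v.1 + p.1 := by rw [ht]; simp
  have hr2 : r.2 = t * v.2 + p.2 := by rw [ht]; simp
  unfold orient
  rw [hq1, hq2, hr1, hr2]
  ring

/-- A finite set all of whose triples of distinct points have nonzero orientation has no
three collinear points. -/
theorem noThree_of_orient (P : Finset (ℝ × ℝ))
    (h : ∀ p ∈ P, ∀ q ∈ P, ∀ r ∈ P, p ≠ q → p ≠ r → q ≠ r → orient p q r ≠ 0) :
    NoThreeCollinear P := by
  intro p hp q hq r hr hpq hpr hqr hcol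
  exact h p hp q hq r hr hpq hpr hqr (orient_eq_zero_of_collinear p q r hcol)

/-- Orientation of a point against a chord of the parabola `y = x ^ 2`. -/
theorem orient_parabola (a b X Y : ℝ) :
    orient (a, a ^ 2) (b, b ^ 2) (X, Y) = (b - a) * (Y - (a + b) * X + a * b) := by
  unfold orient
  ring

/-- A line meets a circle centred at the origin in at most two points. -/
theorem circle_line (N : ℝ) (p q r : ℝ × ℝ) (hp : p.1 ^ 2 + p.2 ^ 2 = N ^ 2)
    (hq : q.1 ^ 2 + q.2 ^ 2 = N ^ 2) (hr : r.1 ^ 2 + r.2 ^ 2 = N ^ 2) (hpq : p ≠ q)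
    (h : orient p q r = 0) : r = p ∨ r = q := by
  unfold orient at h
  have hD : (q.1 - p.1) ^ 2 + (q.2 - p.2) ^ 2 ≠ 0 := by
    intro h0
    have h1 : q.1 - p.1 = 0 := by nlinarith [sq_nonneg (q.1 - p.1), sq_nonneg (q.2 - p.2)]
    have h2 : q.2 - p.2 = 0 := by nlinarith [sq_nonneg (q.1 - p.1), sq_nonneg (q.2 - p.2)]
    exact hpq (Prod.ext (by linarith) (by linarith))
  set D := (q.1 - p.1) ^ 2 + (q.2 - p.2) ^ 2 with hDdef
  -- the parameter of r along the line, multiplied by D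
  set T := (r.1 - p.1) * (q.1 - p.1) + (r.2 - p.2) * (q.2 - p.2) with hT
  have e1 : D * (r.1 - p.1) = T * (q.1 - p.1) := by
    rw [hDdef, hT]; linear_combination (-(q.2 - p.2)) * h
  have e2 : D * (r.2 - p.2) = T * (q.2 - p.2) := by
    rw [hDdef, hT]; linear_combination (q.1 - p.1) * h
  -- 2 <p, q - p> = - D
  have e3 : 2 * (p.1 * (q.1 - p.1) + p.2 * (q.2 - p.2)) = - D := by
    rw [hDdef]; linear_combination hq - hp
  -- |r|^2 = |p|^2 gives T (T - D) = 0
  have e4 : T * (T - D) = 0 := by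
    have h5 : D ^ 2 * (r.1 ^ 2 + r.2 ^ 2) = D ^ 2 * (p.1 ^ 2 + p.2 ^ 2) := by rw [hr, hp]
    have h6 : D * r.1 = D * p.1 + T * (q.1 - p.1) := by linarith
    have h7 : D * r.2 = D * p.2 + T * (q.2 - p.2) := by linarith
    have h8 : D ^ 2 * (r.1 ^ 2 + r.2 ^ 2) = (D * r.1) ^ 2 + (D * r.2) ^ 2 := by ring
    rw [h8, h6, h7] at h5
    have h9 : D * (T * (T - D)) = 0 := by
      have : (D * p.1 + T * (q.1 - p.1)) ^ 2 + (D * p.2 + T * (q.2 - p.2)) ^ 2
          = D ^ 2 * (p.1 ^ 2 + p.2 ^ 2)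
            + D * T * (2 * (p.1 * (q.1 - p.1) + p.2 * (q.2 - p.2))) + T ^ 2 * D := by
        rw [hDdef]; ring
      rw [this, e3] at h5
      linarith
    rcases mul_eq_zero.mp h9 with h10 | h10
    · exact absurd h10 hD
    · exact h10
  rcases mul_eq_zero.mp e4 with h0 | h0
  · left
    rw [h0] at e1 e2
    have h1 : r.1 - p.1 = 0 := by
      rcases mul_eq_zero.mp (by linarith : D * (r.1 - p.1) = 0) with h | h
      · exact absurd h hD
      · exact h
    have h2 : r.2 - p.2 = 0 := by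
      rcases mul_eq_zero.mp (by linarith : D * (r.2 - p.2) = 0) with h | h
      · exact absurd h hD
      · exact h
    exact Prod.ext (by linarith) (by linarith)
  · right
    have hTD : T = D := by linarith
    rw [hTD] at e1 e2
    have h1 : r.1 - p.1 = q.1 - p.1 := mul_left_cancel₀ hD e1
    have h2 : r.2 - p.2 = q.2 - p.2 := mul_left_cancel₀ hD e2
    exact Prod.ext (by linarith) (by linarith)

end Vale.Agent.Lib.P065
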