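import Mathlib

namespace Vale.Agent.Lib.P065

/-- Index pairs `(k, l)` with `k + 2 ≤ l < m`. -/
def idxI (m : ℕ) : Finset (ℕ × ℕ) :=
  (Finset.range m ×ˢ Finset.range m).filter (fun x => x.1 + 2 ≤ x.2)

/-- Direction index of the right-hand far point attached to the pair `x`. -/
def gpos (m : ℕ) (x : ℕ × ℕ) : ℕ := m * (2 ^ x.1 + 2 ^ x.2)

/-- Direction index of the left-hand far point attached to the pair `x`. -/
def gneg (m : ℕ) (x : ℕ × ℕ) : ℕ := 3 * m * 2 ^ (x.2 - 2) + x.1 + 1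

/-- Direction indices of the right-hand far points. -/
def Upos (m : ℕ) : Finset ℕ := Finset.range (m - 2) ∪ (idxI m).image (gpos m)

/-- Direction indices of the left-hand far points. -/
def Uneg (m : ℕ) : Finset ℕ := (idxI m).image (gneg m)

theorem mem_idxI {m : ℕ} {x : ℕ × ℕ} : x ∈ idxI m ↔ x.1 + 2 ≤ x.2 ∧ x.2 < m := by
  unfold idxI
  simp only [Finset.mem_filter, Finset.mem_product, Finset.mem_range]
  constructor
  · rintro ⟨⟨_, h2⟩, h3⟩; exact ⟨h3, h2⟩
  · rintro ⟨h1, h2⟩; exact ⟨⟨by omega, h2⟩, h1⟩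

theorem pow_pair_lt {a b k l : ℕ} (hab : a < b) (hkl : k < l)
    (h : b < l ∨ (b = l ∧ a < k)) : 2 ^ a + 2 ^ b < 2 ^ k + 2 ^ l := by
  rcases h with h | ⟨rfl, h⟩
  · have e1 : 2 ^ a < 2 ^ b := Nat.pow_lt_pow_right (by norm_num) hab
    have e2 : 2 ^ (b + 1) ≤ 2 ^ l := Nat.pow_le_pow_right (by norm_num) (by omega)
    have e3 : 2 ^ (b + 1) = 2 * 2 ^ b := by ring
    have e4 : 0 < 2 ^ k := by positivity
    omega
  · have e1 : 2 ^ a < 2 ^ k := Nat.pow_lt_pow_right (by norm_num) h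
    omega

theorem gpos_lt_iff {m k l : ℕ} (hm : 0 < m) (hkl : k < l) {x : ℕ × ℕ} (hx : x ∈ idxI m) :
    gpos m x < m * (2 ^ k + 2 ^ l) ↔ x.2 < l ∨ (x.2 = l ∧ x.1 < k) := by
  rw [mem_idxI] at hx
  unfold gpos
  rw [Nat.mul_lt_mul_left hm]
  constructor
  · intro h
    by_contra hcon
    have h2 : l < x.2 ∨ (l = x.2 ∧ k ≤ x.1) := by omega
    rcases h2 with h2 | ⟨h2, h3⟩
    · have := pow_pair_lt hkl (by omega : x.1 < x.2) (Or.inl h2)
      omega
    · rcases Nat.lt_or_ge k x.1 with h4 | h4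
      · have := pow_pair_lt hkl (by omega : x.1 < x.2) (Or.inr ⟨h2, h4⟩)
        omega
      · have : x.1 = k := by omega
        rw [this, ← h2] at h
        omega
  · intro h
    exact pow_pair_lt (by omega) hkl h

theorem gneg_lt_iff {m k l : ℕ} (hkl : k < l) {x : ℕ × ℕ}
    (hx : x ∈ idxI m) : gneg m x < m * (2 ^ k + 2 ^ l) ↔ x.2 ≤ l := by
  rw [mem_idxI] at hx
  unfold gneg
  obtain ⟨a, b⟩ := x
  simp only at hx ⊢
  constructor
  · intro h
    by_contra hcon
    have hb : l - 1 ≤ b - 2 := by omega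
    have e1 : 2 ^ (l - 1) ≤ 2 ^ (b - 2) := Nat.pow_le_pow_right (by norm_num) hb
    have e2 : 2 ^ k ≤ 2 ^ (l - 1) := Nat.pow_le_pow_right (by norm_num) (by omega)
    have e3 : 2 ^ l = 2 * 2 ^ (l - 1) := by
      have : l = (l - 1) + 1 := by omega
      rw [this, pow_succ]; simp; ring
    have e4 : m * (2 ^ k + 2 ^ l) ≤ m * (3 * 2 ^ (l - 1)) :=
      Nat.mul_le_mul_left m (by omega)
    have e5 : m * (3 * 2 ^ (l - 1)) ≤ m * (3 * 2 ^ (b - 2)) :=
      Nat.mul_le_mul_left m (by omega)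
    have e6 : m * (3 * 2 ^ (b - 2)) = 3 * m * 2 ^ (b - 2) := by ring
    omega
  · intro h
    have hb : b - 2 ≤ l - 2 := by omega
    have e1 : 2 ^ (b - 2) ≤ 2 ^ (l - 2) := Nat.pow_le_pow_right (by norm_num) hb
    have e2 : 2 ^ l = 4 * 2 ^ (l - 2) := by
      have : l = (l - 2) + 2 := by omega
      rw [this, pow_add]; simp; ring
    have e3 : 0 < 2 ^ (l - 2) := by positivity
    have e4 : 3 * m * 2 ^ (b - 2) ≤ 3 * m * 2 ^ (l - 2) := Nat.mul_le_mul_left _ e1
    have e5 : m * (2 ^ k + 2 ^ l) = m * 2 ^ k + 4 * (m * 2 ^ (l - 2)) := by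
      rw [e2]; ring
    have e6 : 3 * m * 2 ^ (l - 2) = 3 * (m * 2 ^ (l - 2)) := by ring
    have e7 : m ≤ m * 2 ^ (l - 2) := Nat.le_mul_of_pos_right m e3
    have e8 : 0 ≤ m * 2 ^ k := Nat.zero_le _
    omega

theorem gpos_injOn (m : ℕ) (hm : 0 < m) : Set.InjOn (gpos m) (idxI m : Set (ℕ × ℕ)) := by
  intro x hx y hy hxy
  have hx' := mem_idxI.mp hx
  have hy' := mem_idxI.mp hy
  unfold gpos at hxy
  have h := Nat.eq_of_mul_eq_mul_left hm hxy
  have h1 : ¬ (x.2 < y.2 ∨ (x.2 = y.2 ∧ x.1 < y.1)) := fun hc => by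
    have := pow_pair_lt (by omega : x.1 < x.2) (by omega : y.1 < y.2) hc
    omega
  have h2 : ¬ (y.2 < x.2 ∨ (y.2 = x.2 ∧ y.1 < x.1)) := fun hc => by
    have := pow_pair_lt (by omega : y.1 < y.2) (by omega : x.1 < x.2) hc
    omega
  exact Prod.ext (by omega) (by omega)

theorem gneg_injOn (m : ℕ) : Set.InjOn (gneg m) (idxI m : Set (ℕ × ℕ)) := by
  intro x hx y hy hxy
  have hx' := mem_idxI.mp hx
  have hy' := mem_idxI.mp hy
  unfold gneg at hxy
  obtain ⟨a, b⟩ := x
  obtain ⟨c, d⟩ := y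
  simp only at hx' hy' hxy ⊢
  have key : ∀ (a b c d : ℕ), a + 2 ≤ b → b < m → c + 2 ≤ d → d < m → b < d →
      3 * m * 2 ^ (b - 2) + a + 1 < 3 * m * 2 ^ (d - 2) + c + 1 := by
    intro a b c d h1 h2 h3 h4 h5
    have e1 : 2 ^ (b - 2 + 1) ≤ 2 ^ (d - 2) := Nat.pow_le_pow_right (by norm_num) (by omega)
    have e2 : 2 ^ (b - 2 + 1) = 2 * 2 ^ (b - 2) := by ring
    have e3 : 0 < 2 ^ (b - 2) := by positivity
    have e4 : 3 * m * (2 * 2 ^ (b - 2)) ≤ 3 * m * 2 ^ (d - 2) :=
      Nat.mul_le_mul_left _ (by omega)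
    have e5 : 3 * m * (2 * 2 ^ (b - 2)) = 2 * (3 * m * 2 ^ (b - 2)) := by ring
    have e6 : 3 * m ≤ 3 * m * 2 ^ (b - 2) := Nat.le_mul_of_pos_right _ e3
    omega
  rcases Nat.lt_trichotomy b d with h | h | h
  · have := key a b c d hx'.1 hx'.2 hy'.1 hy'.2 h
    omega
  · subst h
    have : a = c := by omega
    rw [this]
  · have := key c d a b hy'.1 hy'.2 hx'.1 hx'.2 h
    omega

/-- Every direction index is below `m * 2 ^ m`. -/
theorem U_bound {m u : ℕ} (hm : 3 ≤ m) (hu : u ∈ Upos m ∨ u ∈ Uneg m) :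
    u + 1 ≤ m * 2 ^ m := by
  have e0 : 2 ^ m = 8 * 2 ^ (m - 3) := by
    have : m = (m - 3) + 3 := by omega
    rw [this, pow_add]; simp; ring
  have e00 : 0 < 2 ^ (m - 3) := by positivity
  rcases hu with hu | hu
  · unfold Upos at hu
    rcases Finset.mem_union.mp hu with h | h
    · have := Finset.mem_range.mp h
      have : m ≤ m * 2 ^ m := Nat.le_mul_of_pos_right m (by positivity)
      omega
    · obtain ⟨x, hx, rfl⟩ := Finset.mem_image.mp h
      rw [mem_idxI] at hx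
      unfold gpos
      have e1 : 2 ^ x.1 ≤ 2 ^ (m - 3) := Nat.pow_le_pow_right (by norm_num) (by omega)
      have e2 : 2 ^ x.2 ≤ 2 ^ (m - 1) := Nat.pow_le_pow_right (by norm_num) (by omega)
      have e3 : 2 ^ (m - 1) = 4 * 2 ^ (m - 3) := by
        have : m - 1 = (m - 3) + 2 := by omega
        rw [this, pow_add]; ring
      have e4 : 2 ^ x.1 + 2 ^ x.2 + 1 ≤ 2 ^ m := by omega
      calc m * (2 ^ x.1 + 2 ^ x.2) + 1 ≤ m * (2 ^ x.1 + 2 ^ x.2) + m := by omega
        _ = m * (2 ^ x.1 + 2 ^ x.2 + 1) := by ring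
        _ ≤ m * 2 ^ m := Nat.mul_le_mul_left m e4
  · unfold Uneg at hu
    obtain ⟨x, hx, rfl⟩ := Finset.mem_image.mp hu
    rw [mem_idxI] at hx
    unfold gneg
    have e1 : 2 ^ (x.2 - 2) ≤ 2 ^ (m - 3) := Nat.pow_le_pow_right (by norm_num) (by omega)
    have e2 : 3 * m * 2 ^ (x.2 - 2) ≤ 3 * m * 2 ^ (m - 3) := Nat.mul_le_mul_left _ e1
    have e3 : m ≤ m * 2 ^ (m - 3) := Nat.le_mul_of_pos_right m e00
    have e4 : m * 2 ^ m = 8 * (m * 2 ^ (m - 3)) := by rw [e0]; ring
    have e5 : 3 * m * 2 ^ (m - 3) = 3 * (m * 2 ^ (m - 3)) := by ring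
    omega

theorem Uneg_pos {m u : ℕ} (hu : u ∈ Uneg m) : 1 ≤ u := by
  unfold Uneg at hu
  obtain ⟨x, _, rfl⟩ := Finset.mem_image.mp hu
  unfold gneg
  omega

theorem gneg_mod {m : ℕ} {x : ℕ × ℕ} (hx : x ∈ idxI m) : gneg m x % m = x.1 + 1 := by
  rw [mem_idxI] at hx
  unfold gneg
  have : 3 * m * 2 ^ (x.2 - 2) + x.1 + 1 = m * (3 * 2 ^ (x.2 - 2)) + (x.1 + 1) := by ring
  rw [this, Nat.mul_add_mod]
  exact Nat.mod_eq_of_lt (by omega)

theorem Upos_Uneg_disjoint (m : ℕ) : Disjoint (Upos m) (Uneg m) := by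
  rw [Finset.disjoint_left]
  intro u hu hu'
  unfold Uneg at hu'
  obtain ⟨x, hx, rfl⟩ := Finset.mem_image.mp hu'
  have hmod := gneg_mod hx
  have hx' := mem_idxI.mp hx
  unfold Upos at hu
  rcases Finset.mem_union.mp hu with h | h
  · have h1 := Finset.mem_range.mp h
    have h2 : gneg m x < m := by omega
    rw [Nat.mod_eq_of_lt h2] at hmod
    unfold gneg at h1 hmod
    have e3 : 0 < 2 ^ (x.2 - 2) := by positivity
    have e6 : 3 * m ≤ 3 * m * 2 ^ (x.2 - 2) := Nat.le_mul_of_pos_right _ e3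
    omega
  · obtain ⟨y, _, hy⟩ := Finset.mem_image.mp h
    unfold gpos at hy
    rw [← hy, Nat.mul_mod_right] at hmod
    omega

theorem range_gpos_disjoint (m : ℕ) :
    Disjoint (Finset.range (m - 2)) ((idxI m).image (gpos m)) := by
  rw [Finset.disjoint_left]
  intro u hu hu'
  obtain ⟨x, hx, rfl⟩ := Finset.mem_image.mp hu'
  have h1 := Finset.mem_range.mp hu
  unfold gpos at h1
  have e1 : 0 < 2 ^ x.1 := by positivity
  have e2 : 0 < 2 ^ x.2 := by positivity
  have e3 : m * 2 ≤ m * (2 ^ x.1 + 2 ^ x.2) := Nat.mul_le_mul_left m (by omega)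
  omega

theorem fiber_card (m l : ℕ) (hl : l < m) :
    ((idxI m).filter (fun x => x.2 = l)).card = l - 1 := by
  have : (idxI m).filter (fun x => x.2 = l) = (Finset.range (l - 1)).image (fun a => (a, l)) := by
    ext x
    simp only [Finset.mem_filter, mem_idxI, Finset.mem_image, Finset.mem_range]
    constructor
    · rintro ⟨⟨h1, _⟩, h3⟩
      exact ⟨x.1, by omega, Prod.ext rfl h3.symm⟩
    · rintro ⟨a, ha, rfl⟩
      simp only
      exact ⟨⟨by omega, hl⟩, trivial⟩
  rw [this, Finset.card_image_of_injective _ (fun a b h => by simpa using h), Finset.card_range]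

theorem fiber_lt_card (m k l : ℕ) (hl : l < m) (hk : k < l) :
    ((idxI m).filter (fun x => x.2 = l ∧ x.1 < k)).card = k := by
  have : (idxI m).filter (fun x => x.2 = l ∧ x.1 < k)
      = (Finset.range k).image (fun a => (a, l)) := by
    ext x
    simp only [Finset.mem_filter, mem_idxI, Finset.mem_image, Finset.mem_range]
    constructor
    · rintro ⟨⟨_, _⟩, h3, h4⟩
      exact ⟨x.1, h4, Prod.ext rfl h3.symm⟩
    · rintro ⟨a, ha, rfl⟩
      simp only
      exact ⟨⟨by omega, hl⟩, trivial, ha⟩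
  rw [this, Finset.card_image_of_injective _ (fun a b h => by simpa using h), Finset.card_range]

theorem two_mul_card_idxI (m : ℕ) : 2 * (idxI m).card = (m - 1) * (m - 2) := by
  have h1 : (idxI m).card = ∑ l ∈ Finset.range m, ((idxI m).filter (fun x => x.2 = l)).card :=
    Finset.card_eq_sum_card_fiberwise (fun x hx => Finset.mem_range.mpr (mem_idxI.mp hx).2)
  have h2 : ∑ l ∈ Finset.range m, ((idxI m).filter (fun x => x.2 = l)).card
      = ∑ l ∈ Finset.range m, (l - 1) :=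
    Finset.sum_congr rfl (fun l hl => fiber_card m l (Finset.mem_range.mp hl))
  rw [h1, h2]
  clear h1 h2
  induction m with
  | zero => simp
  | succ n ih =>
    rw [Finset.sum_range_succ, Nat.mul_add, ih]
    rcases n with _ | _ | n
    · simp
    · simp
    · simp only [Nat.add_sub_cancel]
      have : n + 1 + 1 + 1 - 2 = n + 1 := by omega
      rw [this]
      have : n + 1 + 1 - 2 = n := by omega
      rw [this]
      ring

theorem Upos_card (m : ℕ) (hm : 0 < m) : (Upos m).card = (m - 2) + (idxI m).card := by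
  unfold Upos
  rw [Finset.card_union_of_disjoint (range_gpos_disjoint m), Finset.card_range,
    Finset.card_image_of_injOn (gpos_injOn m hm)]

theorem Uneg_card (m : ℕ) : (Uneg m).card = (idxI m).card := by
  unfold Uneg
  rw [Finset.card_image_of_injOn (gneg_injOn m)]

theorem Upos_filter_card (m k l : ℕ) (hm : 3 ≤ m) (hkl : k < l) (hl : l < m) :
    ((Upos m).filter (fun u => u < m * (2 ^ k + 2 ^ l))).card
      = (m - 2) + ((idxI m).filter (fun x => x.2 < l)).card + k := by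
  unfold Upos
  rw [Finset.filter_union, Finset.card_union_of_disjoint
    (Finset.disjoint_filter_filter (range_gpos_disjoint m))]
  have h1 : (Finset.range (m - 2)).filter (fun u => u < m * (2 ^ k + 2 ^ l))
      = Finset.range (m - 2) := by
    apply Finset.filter_true_of_mem
    intro u hu
    have := Finset.mem_range.mp hu
    have e1 : 0 < 2 ^ k := by positivity
    have e2 : 0 < 2 ^ l := by positivity
    have e3 : m * 2 ≤ m * (2 ^ k + 2 ^ l) := Nat.mul_le_mul_left m (by omega)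
    omega
  rw [h1, Finset.card_range, Finset.filter_image]
  have h2 : (idxI m).filter (fun x => gpos m x < m * (2 ^ k + 2 ^ l))
      = (idxI m).filter (fun x => x.2 < l ∨ (x.2 = l ∧ x.1 < k)) :=
    Finset.filter_congr (fun x hx => gpos_lt_iff (by omega) hkl hx)
  rw [h2, Finset.card_image_of_injOn
    ((gpos_injOn m (by omega)).mono (by
      intro x hx
      exact Finset.mem_coe.mpr (Finset.mem_of_mem_filter x (Finset.mem_coe.mp hx)))),
    Finset.filter_or, Finset.card_union_of_disjoint, fiber_lt_card m k l hl hkl]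
  · ring
  · rw [Finset.disjoint_filter]
    intro x _ h1 h2
    omega

theorem Uneg_filter_card (m k l : ℕ) (hkl : k < l) (hl : l < m) :
    ((Uneg m).filter (fun u => u < m * (2 ^ k + 2 ^ l))).card
      = ((idxI m).filter (fun x => x.2 < l)).card + (l - 1) := by
  unfold Uneg
  rw [Finset.filter_image]
  have h2 : (idxI m).filter (fun x => gneg m x < m * (2 ^ k + 2 ^ l))
      = (idxI m).filter (fun x => x.2 < l ∨ x.2 = l) :=
    Finset.filter_congr (fun x hx => by rw [gneg_lt_iff hkl hx]; omega)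
  rw [h2, Finset.card_image_of_injOn
    ((gneg_injOn m).mono (by
      intro x hx
      exact Finset.mem_coe.mpr (Finset.mem_of_mem_filter x (Finset.mem_coe.mp hx)))),
    Finset.filter_or, Finset.card_union_of_disjoint, fiber_card m l hl]
  rw [Finset.disjoint_filter]
  intro x _ h1 h2
  omega

end Vale.Agent.Lib.P065
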