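import Mathlib
import Vale.Agent.Lib.P065.Defs
import Vale.Agent.Lib.P065.Geometry
import Vale.Agent.Lib.P065.SharpBasic
import Vale.Agent.Lib.P065.SharpIndex

namespace Vale.Agent.Lib.P065

open Classical

/-- Abscissa of the `i`-th inner point. -/
noncomputable def xin (m i : ℕ) : ℝ := (m : ℝ) * 2 ^ i

/-- The `i`-th inner point, on the parabola `y = x ^ 2`. -/
noncomputable def innerPt (m i : ℕ) : ℝ × ℝ := (xin m i, xin m i ^ 2)

/-- Scale bounding all inner coordinates and all direction indices. -/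
noncomputable def bigK (m : ℕ) : ℝ := (m : ℝ) * 2 ^ m

/-- Radius of the circle carrying the outer points. -/
noncomputable def bigN (m : ℕ) : ℝ := 16 * bigK m ^ 4

/-- Denominator of the rational point of the unit circle with index `u`. -/
noncomputable def wden (u : ℕ) : ℝ := 2 * (u : ℝ) ^ 2 + 2 * u + 1

/-- Outer point on the circle of radius `N`: direction index `x.1`, sign `x.2`. -/
noncomputable def outPt (N : ℝ) (x : ℕ × ℝ) : ℝ × ℝ :=
  (x.2 * N * (2 * (x.1 : ℝ) + 1) / wden x.1,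
   x.2 * N * (2 * (x.1 : ℝ) * ((x.1 : ℝ) + 1)) / wden x.1)

theorem wden_pos (u : ℕ) : 0 < wden u := by
  unfold wden
  have : (0 : ℝ) ≤ u := Nat.cast_nonneg u
  positivity

theorem outPt_norm (N : ℝ) (u : ℕ) (e : ℝ) (he : e ^ 2 = 1) :
    (outPt N (u, e)).1 ^ 2 + (outPt N (u, e)).2 ^ 2 = N ^ 2 := by
  have hw := wden_pos u
  unfold outPt
  simp only
  rw [div_pow, div_pow, ← add_div, div_eq_iff (by positivity)]
  have : (e * N * (2 * (u : ℝ) + 1)) ^ 2 + (e * N * (2 * (u : ℝ) * ((u : ℝ) + 1))) ^ 2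
      = e ^ 2 * N ^ 2 * wden u ^ 2 := by
    unfold wden; ring
  rw [this, he]; ring

theorem bigK_ge (m : ℕ) (hm : 3 ≤ m) : 24 ≤ bigK m := by
  unfold bigK
  have h1 : (3 : ℝ) ≤ m := by exact_mod_cast hm
  have h2 : (8 : ℝ) ≤ 2 ^ m := by
    have : (2 : ℝ) ^ 3 ≤ 2 ^ m := pow_le_pow_right₀ (by norm_num) hm
    linarith
  nlinarith

theorem xin_pos (m i : ℕ) (hm : 0 < m) : 0 < xin m i := by
  unfold xin
  have : (0 : ℝ) < m := by exact_mod_cast hm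
  positivity

theorem xin_lt (m : ℕ) (hm : 0 < m) {i j : ℕ} (hij : i < j) : xin m i < xin m j := by
  unfold xin
  have : (0 : ℝ) < m := by exact_mod_cast hm
  have h2 : (2 : ℝ) ^ i < 2 ^ j := pow_lt_pow_right₀ (by norm_num) hij
  nlinarith

theorem xin_injective (m : ℕ) (hm : 0 < m) : Function.Injective (xin m) := by
  intro i j h
  rcases Nat.lt_trichotomy i j with h1 | h1 | h1
  · exact absurd h (xin_lt m hm h1).ne
  · exact h1
  · exact absurd h (xin_lt m hm h1).ne'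

theorem xin_le (m : ℕ) {i : ℕ} (hi : i < m) : xin m i ≤ bigK m / 2 := by
  unfold xin bigK
  have h0 : (0 : ℝ) ≤ m := Nat.cast_nonneg m
  have h1 : (2 : ℝ) ^ i ≤ 2 ^ (m - 1) := pow_le_pow_right₀ (by norm_num) (by omega)
  have h2 : (2 : ℝ) ^ m = 2 * 2 ^ (m - 1) := by
    have : m = (m - 1) + 1 := by omega
    rw [this, pow_succ]; simp; ring
  rw [h2]
  nlinarith

theorem xin_add (m k l : ℕ) : xin m k + xin m l = ((m * (2 ^ k + 2 ^ l) : ℕ) : ℝ) := by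
  unfold xin
  push_cast
  ring

theorem innerPt_injective (m : ℕ) (hm : 0 < m) : Function.Injective (innerPt m) := by
  intro i j h
  unfold innerPt at h
  exact xin_injective m hm (congrArg Prod.fst h)

/-- Sign analysis of the numerator of the chord test against a far point. -/
theorem num_sign (N K u S c : ℝ) (hK : 1 ≤ K) (hN : N = 16 * K ^ 4) (hu0 : 0 ≤ u)
    (huK : u + 1 ≤ K) (hc0 : 0 < c) (hcK : c ≤ K ^ 2 / 4) :
    (S ≤ u → 0 < N * (2 * u * (u + 1) - S * (2 * u + 1)) + (2 * u ^ 2 + 2 * u + 1) * c) ∧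
    (u + 1 ≤ S → N * (2 * u * (u + 1) - S * (2 * u + 1)) + (2 * u ^ 2 + 2 * u + 1) * c < 0) ∧
    (S ≤ u → 1 ≤ u →
      -(N * (2 * u * (u + 1) - S * (2 * u + 1))) + (2 * u ^ 2 + 2 * u + 1) * c < 0) ∧
    (u + 1 ≤ S →
      0 < -(N * (2 * u * (u + 1) - S * (2 * u + 1))) + (2 * u ^ 2 + 2 * u + 1) * c) := by
  have hK4 : 0 < K ^ 4 := by positivity
  have hNpos : 0 < N := by rw [hN]; positivity
  have hw : 0 < 2 * u ^ 2 + 2 * u + 1 := by positivity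
  have hwc : 0 < (2 * u ^ 2 + 2 * u + 1) * c := mul_pos hw hc0
  have hK2 : 0 ≤ K ^ 2 := by positivity
  have hK3 : K ^ 3 ≤ K ^ 4 := by
    have : K ^ 4 = K ^ 3 * K := by ring
    rw [this]
    have : 0 ≤ K ^ 3 := by positivity
    nlinarith
  refine ⟨?_, ?_, ?_, ?_⟩
  · intro hS
    have h1 : 0 ≤ 2 * u * (u + 1) - S * (2 * u + 1) := by nlinarith
    have := mul_nonneg hNpos.le h1
    linarith
  · intro hS
    have h1 : 2 * u * (u + 1) - S * (2 * u + 1) ≤ -(u + 1) := by nlinarith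
    have h2 : N * (2 * u * (u + 1) - S * (2 * u + 1)) ≤ N * (-(u + 1)) :=
      mul_le_mul_of_nonneg_left h1 hNpos.le
    -- w c ≤ (u+1) (2u+1) K^2/4 ≤ (u+1) K^3 / 2 < N (u+1)
    have h3 : (2 * u ^ 2 + 2 * u + 1) * c ≤ (2 * u ^ 2 + 2 * u + 1) * (K ^ 2 / 4) :=
      mul_le_mul_of_nonneg_left hcK hw.le
    have h4 : 2 * u ^ 2 + 2 * u + 1 ≤ (u + 1) * (2 * K) := by nlinarith
    have h5 : (2 * u ^ 2 + 2 * u + 1) * (K ^ 2 / 4) ≤ (u + 1) * (2 * K) * (K ^ 2 / 4) :=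
      mul_le_mul_of_nonneg_right h4 (by positivity)
    have h6 : (u + 1) * (2 * K) * (K ^ 2 / 4) = (u + 1) * (K ^ 3 / 2) := by ring
    have h7 : (u + 1) * (K ^ 3 / 2) < (u + 1) * N := by
      apply mul_lt_mul_of_pos_left _ (by linarith)
      rw [hN]; nlinarith
    nlinarith
  · intro hS hu1
    have h1 : u ≤ 2 * u * (u + 1) - S * (2 * u + 1) := by nlinarith
    have h2 : N * u ≤ N * (2 * u * (u + 1) - S * (2 * u + 1)) :=
      mul_le_mul_of_nonneg_left h1 hNpos.le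
    have h3 : (2 * u ^ 2 + 2 * u + 1) * c ≤ (2 * u ^ 2 + 2 * u + 1) * (K ^ 2 / 4) :=
      mul_le_mul_of_nonneg_left hcK hw.le
    have h4 : 2 * u ^ 2 + 2 * u + 1 ≤ 5 * u * K := by nlinarith
    have h5 : (2 * u ^ 2 + 2 * u + 1) * (K ^ 2 / 4) ≤ 5 * u * K * (K ^ 2 / 4) :=
      mul_le_mul_of_nonneg_right h4 (by positivity)
    have h6 : 5 * u * K * (K ^ 2 / 4) = u * (5 * K ^ 3 / 4) := by ring
    have h7 : u * (5 * K ^ 3 / 4) < u * N := by
      apply mul_lt_mul_of_pos_left _ (by linarith)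
      rw [hN]; nlinarith
    nlinarith
  · intro hS
    have h1 : 2 * u * (u + 1) - S * (2 * u + 1) ≤ -(u + 1) := by nlinarith
    have h2 : N * (2 * u * (u + 1) - S * (2 * u + 1)) ≤ N * (-(u + 1)) :=
      mul_le_mul_of_nonneg_left h1 hNpos.le
    have h3 : 0 < N * (u + 1) := by positivity
    nlinarith

/-- The chord test of an outer point, as an explicit quotient. -/
theorem orient_inner_outer_eq (m k l : ℕ) (N : ℝ) (u : ℕ) (e : ℝ) :
    orient (innerPt m k) (innerPt m l) (outPt N (u, e))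
      = (xin m l - xin m k) *
        ((e * (N * (2 * (u : ℝ) * ((u : ℝ) + 1) - (xin m k + xin m l) * (2 * (u : ℝ) + 1)))
          + (2 * (u : ℝ) ^ 2 + 2 * u + 1) * (xin m k * xin m l)) / wden u) := by
  have hw := wden_pos u
  unfold innerPt outPt
  rw [orient_parabola]
  simp only
  congr 1
  rw [eq_div_iff hw.ne']
  have hw' : wden u = 2 * (u : ℝ) ^ 2 + 2 * u + 1 := rfl
  field_simp
  rw [hw']
  ring

theorem inner_prod_bound (m k l : ℕ) (hm : 0 < m) (hk : k < m) (hl : l < m) :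
    0 < xin m k * xin m l ∧ xin m k * xin m l ≤ bigK m ^ 2 / 4 := by
  have h1 := xin_pos m k hm
  have h2 := xin_pos m l hm
  have h3 := xin_le m hk
  have h4 := xin_le m hl
  refine ⟨mul_pos h1 h2, ?_⟩
  have : xin m k * xin m l ≤ (bigK m / 2) * (bigK m / 2) :=
    mul_le_mul h3 h4 h2.le (by linarith)
  nlinarith

/-- Side of a far point with respect to the chord of the inner points `k < l`. -/
theorem orient_chord_far (m k l u : ℕ) (hm : 3 ≤ m) (hkl : k < l) (hl : l < m)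
    (hu : (u : ℝ) + 1 ≤ bigK m) :
    (m * (2 ^ k + 2 ^ l) ≤ u →
      0 < orient (innerPt m k) (innerPt m l) (outPt (bigN m) (u, 1))) ∧
    (u < m * (2 ^ k + 2 ^ l) →
      orient (innerPt m k) (innerPt m l) (outPt (bigN m) (u, 1)) < 0) ∧
    (m * (2 ^ k + 2 ^ l) ≤ u → 1 ≤ u →
      orient (innerPt m k) (innerPt m l) (outPt (bigN m) (u, -1)) < 0) ∧
    (u < m * (2 ^ k + 2 ^ l) →
      0 < orient (innerPt m k) (innerPt m l) (outPt (bigN m) (u, -1))) := by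
  have hm0 : 0 < m := by omega
  have hK : (1 : ℝ) ≤ bigK m := by linarith [bigK_ge m hm]
  have hu0 : (0 : ℝ) ≤ u := Nat.cast_nonneg u
  obtain ⟨hc0, hcK⟩ := inner_prod_bound m k l hm0 (by omega) hl
  obtain ⟨s1, s2, s3, s4⟩ := num_sign (bigN m) (bigK m) (u : ℝ) (xin m k + xin m l)
    (xin m k * xin m l) hK rfl hu0 hu hc0 hcK
  have hx : 0 < xin m l - xin m k := by linarith [xin_lt m hm0 hkl]
  have hw := wden_pos u
  have hS := xin_add m k l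
  refine ⟨?_, ?_, ?_, ?_⟩
  · intro h
    rw [orient_inner_outer_eq, one_mul]
    have hS' : xin m k + xin m l ≤ (u : ℝ) := by rw [hS]; exact_mod_cast h
    exact mul_pos hx (div_pos (s1 hS') hw)
  · intro h
    rw [orient_inner_outer_eq, one_mul]
    have hS' : (u : ℝ) + 1 ≤ xin m k + xin m l := by rw [hS]; exact_mod_cast h
    exact mul_neg_of_pos_of_neg hx (div_neg_of_neg_of_pos (s2 hS') hw)
  · intro h h1
    rw [orient_inner_outer_eq, neg_one_mul]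
    have hS' : xin m k + xin m l ≤ (u : ℝ) := by rw [hS]; exact_mod_cast h
    have h1' : (1 : ℝ) ≤ u := by exact_mod_cast h1
    exact mul_neg_of_pos_of_neg hx (div_neg_of_neg_of_pos (s3 hS' h1') hw)
  · intro h
    rw [orient_inner_outer_eq, neg_one_mul]
    have hS' : (u : ℝ) + 1 ≤ xin m k + xin m l := by rw [hS]; exact_mod_cast h
    exact mul_pos hx (div_pos (s4 hS') hw)

theorem lin_bound (N W A1 A2 B1 B2 r1 r2 s1 s2 : ℝ) (hN : 0 ≤ N)
    (hs1 : s1 = 1 ∨ s1 = -1) (hs2 : s2 = 1 ∨ s2 = -1)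
    (hA1 : 0 ≤ A1) (hA1' : A1 ≤ W) (hA2 : 0 ≤ A2) (hA2' : A2 ≤ W)
    (hB1 : 0 ≤ B1) (hB1' : B1 ≤ W) (hB2 : 0 ≤ B2) (hB2' : B2 ≤ W)
    (hr1 : 0 ≤ r1) (hr2 : 0 ≤ r2) :
    |N * ((s1 * A1 - s2 * A2) * r2 - (s1 * B1 - s2 * B2) * r1)| ≤ 2 * N * W * (r1 + r2) := by
  have hx : |s1 * A1 - s2 * A2| ≤ 2 * W := by
    rw [abs_le]
    rcases hs1 with rfl | rfl <;> rcases hs2 with rfl | rfl <;> constructor <;> linarith
  have hy : |s1 * B1 - s2 * B2| ≤ 2 * W := by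
    rw [abs_le]
    rcases hs1 with rfl | rfl <;> rcases hs2 with rfl | rfl <;> constructor <;> linarith
  rw [abs_mul, abs_of_nonneg hN]
  have h1 : |(s1 * A1 - s2 * A2) * r2 - (s1 * B1 - s2 * B2) * r1|
      ≤ |(s1 * A1 - s2 * A2) * r2| + |(s1 * B1 - s2 * B2) * r1| := abs_sub _ _
  rw [abs_mul, abs_mul, abs_of_nonneg hr1, abs_of_nonneg hr2] at h1
  have h2 : |s1 * A1 - s2 * A2| * r2 ≤ 2 * W * r2 := mul_le_mul_of_nonneg_right hx hr2
  have h3 : |s1 * B1 - s2 * B2| * r1 ≤ 2 * W * r1 := mul_le_mul_of_nonneg_right hy hr1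
  calc N * |(s1 * A1 - s2 * A2) * r2 - (s1 * B1 - s2 * B2) * r1|
      ≤ N * (2 * W * r2 + 2 * W * r1) := mul_le_mul_of_nonneg_left (by linarith) hN
    _ = 2 * N * W * (r1 + r2) := by ring

theorem dir_bounds (x : ℝ) (hx : 0 ≤ x) :
    2 * x + 1 ≤ 2 * x ^ 2 + 2 * x + 1 ∧ 2 * x * (x + 1) ≤ 2 * x ^ 2 + 2 * x + 1 ∧
      2 * x ^ 2 + 2 * x + 1 ≤ 2 * (x + 1) ^ 2 := by
  refine ⟨?_, ?_, ?_⟩ <;> nlinarith [sq_nonneg x]

theorem cross_lower (x y : ℝ) (hx : 0 ≤ x) (hxy : x + 1 ≤ y) :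
    2 * ((x + 1) * (y + 1))
      ≤ (2 * x + 1) * (2 * y * (y + 1)) - (2 * x * (x + 1)) * (2 * y + 1) := by
  have h1 : (2 * x + 1) * (2 * y * (y + 1)) - (2 * x * (x + 1)) * (2 * y + 1)
      = 2 * ((y - x) * (2 * x * y + x + y + 1)) := by ring
  rw [h1]
  have hy : 0 ≤ y := by linarith
  have h2 : (x + 1) * (y + 1) ≤ 2 * x * y + x + y + 1 := by nlinarith [mul_nonneg hx hy]
  have h3 : 0 ≤ (x + 1) * (y + 1) := by positivity
  have h4 : 1 * ((x + 1) * (y + 1)) ≤ (y - x) * (2 * x * y + x + y + 1) :=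
    mul_le_mul (by linarith) h2 h3 (by linarith)
  linarith

theorem outPt_orient_key (N : ℝ) (u u' : ℕ) (e e' : ℝ) (r : ℝ × ℝ) :
    wden u * wden u' * orient (outPt N (u, e)) (outPt N (u', e')) r
      = e * e' * (N ^ 2 * ((2 * (u : ℝ) + 1) * (2 * (u' : ℝ) * ((u' : ℝ) + 1))
          - (2 * (u : ℝ) * ((u : ℝ) + 1)) * (2 * (u' : ℝ) + 1)))
        + N * ((e' * ((2 * (u' : ℝ) + 1) * wden u) - e * ((2 * (u : ℝ) + 1) * wden u')) * r.2
          - (e' * ((2 * (u' : ℝ) * ((u' : ℝ) + 1)) * wden u)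
              - e * ((2 * (u : ℝ) * ((u : ℝ) + 1)) * wden u')) * r.1) := by
  have hw := wden_pos u
  have hw' := wden_pos u'
  unfold orient outPt
  simp only
  field_simp
  ring

theorem far_core (N K W T Pi r1 r2 : ℝ) (hK : 1 ≤ K) (hN : N = 16 * K ^ 4)
    (hPi1 : 1 ≤ Pi) (hPiK : Pi ≤ K ^ 2) (hW0 : 0 ≤ W) (hW : W ≤ 4 * Pi ^ 2)
    (hT : 2 * Pi ≤ T) (hr : r1 + r2 ≤ K ^ 2) :
    2 * N * W * (r1 + r2) < N ^ 2 * T := by
  have hNpos : 0 < N := by rw [hN]; positivity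
  have hK4 : 0 < K ^ 4 := by positivity
  have hK2 : 0 ≤ K ^ 2 := by positivity
  have h1 : 2 * N * W * (r1 + r2) ≤ 2 * N * W * K ^ 2 :=
    mul_le_mul_of_nonneg_left hr (by positivity)
  have h2 : W * K ^ 2 ≤ 4 * Pi ^ 2 * K ^ 2 := mul_le_mul_of_nonneg_right hW hK2
  have h3 : 4 * Pi ^ 2 * K ^ 2 ≤ 4 * Pi * K ^ 4 := by
    have h31 : Pi * Pi ≤ Pi * K ^ 2 := mul_le_mul_of_nonneg_left hPiK (by linarith)
    have h32 : Pi * Pi * K ^ 2 ≤ Pi * K ^ 2 * K ^ 2 := mul_le_mul_of_nonneg_right h31 hK2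
    have h33 : Pi * K ^ 2 * K ^ 2 = Pi * K ^ 4 := by ring
    nlinarith
  have h6 : 2 * N * W * K ^ 2 ≤ 2 * N * (4 * Pi * K ^ 4) := by
    have h61 : W * K ^ 2 ≤ 4 * Pi * K ^ 4 := le_trans h2 h3
    have h62 : 2 * N * (W * K ^ 2) ≤ 2 * N * (4 * Pi * K ^ 4) :=
      mul_le_mul_of_nonneg_left h61 (by positivity)
    linarith
  have h4 : 2 * N * (4 * Pi * K ^ 4) < N ^ 2 * (2 * Pi) := by
    have e1 : 2 * N * (4 * Pi * K ^ 4) = N * (8 * K ^ 4) * Pi := by ring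
    have e2 : N ^ 2 * (2 * Pi) = N * (2 * N) * Pi := by ring
    rw [e1, e2]
    have h41 : N * (8 * K ^ 4) < N * (2 * N) := by
      apply mul_lt_mul_of_pos_left _ hNpos
      rw [hN]; linarith
    exact mul_lt_mul_of_pos_right h41 (by linarith)
  have h5 : N ^ 2 * (2 * Pi) ≤ N ^ 2 * T := mul_le_mul_of_nonneg_left hT (by positivity)
  linarith

/-- Two far points with different direction indices are never collinear with a point
close to the origin. -/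
theorem orient_far_far_ne (N K : ℝ) (hK : 1 ≤ K) (hN : N = 16 * K ^ 4) (u u' : ℕ)
    (e e' : ℝ) (he : e = 1 ∨ e = -1) (he' : e' = 1 ∨ e' = -1) (huu : u < u')
    (hu : (u : ℝ) + 1 ≤ K) (hu' : (u' : ℝ) + 1 ≤ K) (r : ℝ × ℝ) (hr1 : 0 ≤ r.1)
    (hr2 : 0 ≤ r.2) (hr : r.1 + r.2 ≤ K ^ 2) :
    orient (outPt N (u, e)) (outPt N (u', e')) r ≠ 0 := by
  have hw := wden_pos u
  have hw' := wden_pos u'
  have hu0 : (0 : ℝ) ≤ u := Nat.cast_nonneg u
  have hu0' : (0 : ℝ) ≤ u' := Nat.cast_nonneg u'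
  have huu' : (u : ℝ) + 1 ≤ u' := by exact_mod_cast huu
  have hNpos : 0 < N := by rw [hN]; positivity
  have hwd : wden u = 2 * (u : ℝ) ^ 2 + 2 * u + 1 := rfl
  have hwd' : wden u' = 2 * (u' : ℝ) ^ 2 + 2 * u' + 1 := rfl
  obtain ⟨d1, d2, d3⟩ := dir_bounds (u : ℝ) hu0
  obtain ⟨d1', d2', d3'⟩ := dir_bounds (u' : ℝ) hu0'
  rw [← hwd] at d1 d2 d3
  rw [← hwd'] at d1' d2' d3'
  have key := outPt_orient_key N u u' e e' r
  have hT := cross_lower (u : ℝ) (u' : ℝ) hu0 huu'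
  have hPi1 : 1 ≤ ((u : ℝ) + 1) * ((u' : ℝ) + 1) := by nlinarith
  have hPiK : ((u : ℝ) + 1) * ((u' : ℝ) + 1) ≤ K ^ 2 := by
    have : ((u : ℝ) + 1) * ((u' : ℝ) + 1) ≤ K * K :=
      mul_le_mul hu hu' (by linarith) (by linarith)
    nlinarith
  have hW : wden u * wden u' ≤ 4 * (((u : ℝ) + 1) * ((u' : ℝ) + 1)) ^ 2 := by
    have : wden u * wden u' ≤ (2 * ((u : ℝ) + 1) ^ 2) * (2 * ((u' : ℝ) + 1) ^ 2) :=
      mul_le_mul d3 d3' hw'.le (by positivity)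
    nlinarith
  have hW0 : 0 < wden u * wden u' := mul_pos hw hw'
  have hsec := lin_bound N (wden u * wden u') ((2 * (u' : ℝ) + 1) * wden u)
    ((2 * (u : ℝ) + 1) * wden u') ((2 * (u' : ℝ) * ((u' : ℝ) + 1)) * wden u)
    ((2 * (u : ℝ) * ((u : ℝ) + 1)) * wden u')
    r.1 r.2 e' e hNpos.le he' he
    (by positivity) (by rw [mul_comm]; exact mul_le_mul_of_nonneg_left d1' hw.le)
    (by positivity) (mul_le_mul_of_nonneg_right d1 hw'.le)
    (by positivity) (by rw [mul_comm]; exact mul_le_mul_of_nonneg_left d2' hw.le)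
    (by positivity) (mul_le_mul_of_nonneg_right d2 hw'.le)
    hr1 hr2
  have hmain := far_core N K (wden u * wden u')
    ((2 * (u : ℝ) + 1) * (2 * (u' : ℝ) * ((u' : ℝ) + 1))
      - (2 * (u : ℝ) * ((u : ℝ) + 1)) * (2 * (u' : ℝ) + 1))
    (((u : ℝ) + 1) * ((u' : ℝ) + 1)) r.1 r.2 hK hN hPi1 hPiK hW0.le hW hT hr
  intro h0
  rw [h0, mul_zero] at key
  rw [abs_le] at hsec
  obtain ⟨hs1, hs2⟩ := hsec
  rcases he with rfl | rfl <;> rcases he' with rfl | rfl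
  · have : (1 : ℝ) * 1 * (N ^ 2 * ((2 * (u : ℝ) + 1) * (2 * (u' : ℝ) * ((u' : ℝ) + 1))
          - (2 * (u : ℝ) * ((u : ℝ) + 1)) * (2 * (u' : ℝ) + 1)))
        = N ^ 2 * ((2 * (u : ℝ) + 1) * (2 * (u' : ℝ) * ((u' : ℝ) + 1))
          - (2 * (u : ℝ) * ((u : ℝ) + 1)) * (2 * (u' : ℝ) + 1)) := by ring
    rw [this] at key
    linarith
  · have : (1 : ℝ) * -1 * (N ^ 2 * ((2 * (u : ℝ) + 1) * (2 * (u' : ℝ) * ((u' : ℝ) + 1))
          - (2 * (u : ℝ) * ((u : ℝ) + 1)) * (2 * (u' : ℝ) + 1)))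
        = -(N ^ 2 * ((2 * (u : ℝ) + 1) * (2 * (u' : ℝ) * ((u' : ℝ) + 1))
          - (2 * (u : ℝ) * ((u : ℝ) + 1)) * (2 * (u' : ℝ) + 1))) := by ring
    rw [this] at key
    linarith
  · have : (-1 : ℝ) * 1 * (N ^ 2 * ((2 * (u : ℝ) + 1) * (2 * (u' : ℝ) * ((u' : ℝ) + 1))
          - (2 * (u : ℝ) * ((u : ℝ) + 1)) * (2 * (u' : ℝ) + 1)))
        = -(N ^ 2 * ((2 * (u : ℝ) + 1) * (2 * (u' : ℝ) * ((u' : ℝ) + 1))
          - (2 * (u : ℝ) * ((u : ℝ) + 1)) * (2 * (u' : ℝ) + 1))) := by ring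
    rw [this] at key
    linarith
  · have : (-1 : ℝ) * -1 * (N ^ 2 * ((2 * (u : ℝ) + 1) * (2 * (u' : ℝ) * ((u' : ℝ) + 1))
          - (2 * (u : ℝ) * ((u : ℝ) + 1)) * (2 * (u' : ℝ) + 1)))
        = N ^ 2 * ((2 * (u : ℝ) + 1) * (2 * (u' : ℝ) * ((u' : ℝ) + 1))
          - (2 * (u : ℝ) * ((u : ℝ) + 1)) * (2 * (u' : ℝ) + 1)) := by ring
    rw [this] at key
    linarith

end Vale.Agent.Lib.P065
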