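import Mathlib
import Vale.Agent.Lib.P065.Defs
import Vale.Agent.Lib.P065.Geometry
import Vale.Agent.Lib.P065.SharpBasic
import Vale.Agent.Lib.P065.SharpIndex
import Vale.Agent.Lib.P065.SharpConfig

namespace Vale.Agent.Lib.P065

open Classical

/-- Indices (direction index, sign) of the outer points. -/
noncomputable def outIdx (m : ℕ) : Finset (ℕ × ℝ) :=
  (Upos m).image (fun u => (u, (1 : ℝ))) ∪ (Uneg m).image (fun u => (u, (-1 : ℝ)))

/-- The `m` inner points. -/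
noncomputable def innerSet (m : ℕ) : Finset (ℝ × ℝ) := (Finset.range m).image (innerPt m)

/-- The outer points. -/
noncomputable def outerSet (m : ℕ) : Finset (ℝ × ℝ) := (outIdx m).image (outPt (bigN m))

/-- The extremal two-layer configuration. -/
noncomputable def sharpCfg (m : ℕ) : Finset (ℝ × ℝ) := innerSet m ∪ outerSet m

/-- Layer labelling: outer points have layer `0`, inner points layer `1`. -/
noncomputable def sharpLayer (m : ℕ) (q : ℝ × ℝ) : ℕ := if q ∈ innerSet m then 1 else 0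

theorem mem_outIdx {m : ℕ} {x : ℕ × ℝ} :
    x ∈ outIdx m ↔ (x.1 ∈ Upos m ∧ x.2 = 1) ∨ (x.1 ∈ Uneg m ∧ x.2 = -1) := by
  unfold outIdx
  simp only [Finset.mem_union, Finset.mem_image]
  constructor
  · rintro (⟨u, hu, rfl⟩ | ⟨u, hu, rfl⟩)
    · exact Or.inl ⟨hu, rfl⟩
    · exact Or.inr ⟨hu, rfl⟩
  · rintro (⟨hu, h⟩ | ⟨hu, h⟩)
    · exact Or.inl ⟨x.1, hu, Prod.ext rfl h.symm⟩
    · exact Or.inr ⟨x.1, hu, Prod.ext rfl h.symm⟩

theorem outIdx_sign {m : ℕ} {x : ℕ × ℝ} (hx : x ∈ outIdx m) : x.2 = 1 ∨ x.2 = -1 := by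
  rcases mem_outIdx.mp hx with h | h
  · exact Or.inl h.2
  · exact Or.inr h.2

theorem outIdx_bound {m : ℕ} (hm : 3 ≤ m) {x : ℕ × ℝ} (hx : x ∈ outIdx m) :
    (x.1 : ℝ) + 1 ≤ bigK m := by
  have h : x.1 + 1 ≤ m * 2 ^ m := by
    rcases mem_outIdx.mp hx with h | h
    · exact U_bound hm (Or.inl h.1)
    · exact U_bound hm (Or.inr h.1)
  unfold bigK
  exact_mod_cast h

theorem outIdx_neg_pos {m : ℕ} {x : ℕ × ℝ} (hx : x ∈ outIdx m) (h : x.2 = -1) : 1 ≤ x.1 := by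
  rcases mem_outIdx.mp hx with h' | h'
  · rw [h'.2] at h; norm_num at h
  · exact Uneg_pos h'.1

theorem outIdx_fst_inj {m : ℕ} {x y : ℕ × ℝ} (hx : x ∈ outIdx m) (hy : y ∈ outIdx m)
    (h : x.1 = y.1) : x = y := by
  have hd := Finset.disjoint_left.mp (Upos_Uneg_disjoint m)
  rcases mem_outIdx.mp hx with hx' | hx' <;> rcases mem_outIdx.mp hy with hy' | hy'
  · exact Prod.ext h (by rw [hx'.2, hy'.2])
  · exact absurd (h ▸ hy'.1) (hd hx'.1)
  · exact absurd hx'.1 (hd (h ▸ hy'.1))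
  · exact Prod.ext h (by rw [hx'.2, hy'.2])

theorem inner_facts (m i : ℕ) (hm : 3 ≤ m) (hi : i < m) :
    0 ≤ (innerPt m i).1 ∧ 0 ≤ (innerPt m i).2 ∧
      (innerPt m i).1 + (innerPt m i).2 ≤ bigK m ^ 2 := by
  have h1 := xin_pos m i (by omega)
  have h2 := xin_le m hi
  have hK := bigK_ge m hm
  unfold innerPt
  simp only
  refine ⟨h1.le, by positivity, ?_⟩
  have : xin m i ^ 2 ≤ (bigK m / 2) ^ 2 := pow_le_pow_left₀ h1.le h2 2
  nlinarith

theorem bigN_pos (m : ℕ) (hm : 3 ≤ m) : 0 < bigN m := by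
  have hK := bigK_ge m hm
  unfold bigN
  positivity

theorem bigK_sq_lt (m : ℕ) (hm : 3 ≤ m) : bigK m ^ 2 < bigN m := by
  have hK := bigK_ge m hm
  unfold bigN
  have h1 : bigK m ^ 4 = bigK m ^ 2 * bigK m ^ 2 := by ring
  have h2 : 1 ≤ bigK m ^ 2 := by nlinarith
  nlinarith

theorem outer_norm (m : ℕ) {x : ℕ × ℝ} (hx : x ∈ outIdx m) :
    (outPt (bigN m) x).1 ^ 2 + (outPt (bigN m) x).2 ^ 2 = bigN m ^ 2 := by
  obtain ⟨u, e⟩ := x
  apply outPt_norm
  rcases outIdx_sign hx with h | h <;> simp only at h <;> rw [h] <;> norm_num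

theorem inner_norm_lt (m i : ℕ) (hm : 3 ≤ m) (hi : i < m) :
    (innerPt m i).1 ^ 2 + (innerPt m i).2 ^ 2 < bigN m ^ 2 := by
  obtain ⟨h1, h2, h3⟩ := inner_facts m i hm hi
  have hN := bigK_sq_lt m hm
  have hK := bigK_ge m hm
  have h4 : (innerPt m i).1 ^ 2 + (innerPt m i).2 ^ 2
      ≤ ((innerPt m i).1 + (innerPt m i).2) ^ 2 := by nlinarith
  have h5 : ((innerPt m i).1 + (innerPt m i).2) ^ 2 ≤ (bigK m ^ 2) ^ 2 :=
    pow_le_pow_left₀ (by linarith) h3 2
  have h6 : (bigK m ^ 2) ^ 2 < bigN m ^ 2 :=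
    pow_lt_pow_left₀ hN (by positivity) (by norm_num)
  linarith

theorem outPt_ne_of_fst_ne (m : ℕ) (hm : 3 ≤ m) {x y : ℕ × ℝ} (hx : x ∈ outIdx m)
    (hy : y ∈ outIdx m) (h : x.1 ≠ y.1) : outPt (bigN m) x ≠ outPt (bigN m) y := by
  have hK : (1 : ℝ) ≤ bigK m := by linarith [bigK_ge m hm]
  have hK2 : (0 : ℝ) ≤ bigK m ^ 2 := by positivity
  intro heq
  rcases Nat.lt_or_gt_of_ne h with h1 | h1
  · have := orient_far_far_ne (bigN m) (bigK m) hK rfl x.1 y.1 x.2 y.2 (outIdx_sign hx)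
      (outIdx_sign hy) h1 (outIdx_bound hm hx) (outIdx_bound hm hy) (0, 0)
      (le_refl _) (le_refl _) (by simpa using hK2)
    apply this
    rw [heq]
    exact orient_self_left _ _
  · have := orient_far_far_ne (bigN m) (bigK m) hK rfl y.1 x.1 y.2 x.2 (outIdx_sign hy)
      (outIdx_sign hx) h1 (outIdx_bound hm hy) (outIdx_bound hm hx) (0, 0)
      (le_refl _) (le_refl _) (by simpa using hK2)
    apply this
    rw [heq]
    exact orient_self_left _ _

theorem outPt_injOn (m : ℕ) (hm : 3 ≤ m) :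
    Set.InjOn (outPt (bigN m)) (outIdx m : Set (ℕ × ℝ)) := by
  intro x hx y hy hxy
  by_contra hne
  have h1 : x.1 ≠ y.1 := fun h => hne (outIdx_fst_inj hx hy h)
  exact outPt_ne_of_fst_ne m hm hx hy h1 hxy

theorem mem_innerSet {m : ℕ} {p : ℝ × ℝ} : p ∈ innerSet m ↔ ∃ i, i < m ∧ p = innerPt m i := by
  unfold innerSet
  simp only [Finset.mem_image, Finset.mem_range]
  constructor
  · rintro ⟨i, hi, rfl⟩; exact ⟨i, hi, rfl⟩
  · rintro ⟨i, hi, rfl⟩; exact ⟨i, hi, rfl⟩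

theorem mem_outerSet {m : ℕ} {p : ℝ × ℝ} :
    p ∈ outerSet m ↔ ∃ x, x ∈ outIdx m ∧ p = outPt (bigN m) x := by
  unfold outerSet
  simp only [Finset.mem_image]
  constructor
  · rintro ⟨x, hx, rfl⟩; exact ⟨x, hx, rfl⟩
  · rintro ⟨x, hx, rfl⟩; exact ⟨x, hx, rfl⟩

theorem inner_outer_disjoint (m : ℕ) (hm : 3 ≤ m) : Disjoint (innerSet m) (outerSet m) := by
  rw [Finset.disjoint_left]
  intro p hp hp'
  obtain ⟨i, hi, rfl⟩ := mem_innerSet.mp hp
  obtain ⟨x, hx, hpx⟩ := mem_outerSet.mp hp'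
  have h1 := inner_norm_lt m i hm hi
  have h2 := outer_norm m hx
  rw [← hpx] at h2
  linarith

theorem orient_cycle (p q r : ℝ × ℝ) : orient q r p = orient p q r := by
  unfold orient; ring

theorem orient_swap23 (p q r : ℝ × ℝ) : orient p r q = - orient p q r := by
  unfold orient; ring

theorem base_iii (m i j k : ℕ) (hm : 3 ≤ m) (hij : i ≠ j) (hik : i ≠ k) (hjk : j ≠ k) :
    orient (innerPt m i) (innerPt m j) (innerPt m k) ≠ 0 := by
  have hinj := xin_injective m (by omega : 0 < m)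
  unfold innerPt
  rw [orient_parabola]
  have h1 : xin m j - xin m i ≠ 0 := sub_ne_zero.mpr (fun h => hij (hinj h).symm)
  have h2 : xin m k - xin m i ≠ 0 := sub_ne_zero.mpr (fun h => hik (hinj h).symm)
  have h3 : xin m k - xin m j ≠ 0 := sub_ne_zero.mpr (fun h => hjk (hinj h).symm)
  have : xin m k ^ 2 - (xin m i + xin m j) * xin m k + xin m i * xin m j
      = (xin m k - xin m i) * (xin m k - xin m j) := by ring
  rw [this]
  exact mul_ne_zero h1 (mul_ne_zero h2 h3)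

theorem base_iio (m i j : ℕ) (hm : 3 ≤ m) (hi : i < m) (hj : j < m) (hij : i ≠ j)
    {x : ℕ × ℝ} (hx : x ∈ outIdx m) :
    orient (innerPt m i) (innerPt m j) (outPt (bigN m) x) ≠ 0 := by
  have hb := outIdx_bound hm hx
  have key : ∀ k l : ℕ, k < l → l < m →
      orient (innerPt m k) (innerPt m l) (outPt (bigN m) x) ≠ 0 := by
    intro k l hkl hl
    obtain ⟨s1, s2, s3, s4⟩ := orient_chord_far m k l x.1 hm hkl hl hb
    obtain ⟨u, e⟩ := x
    simp only at s1 s2 s3 s4 hb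
    rcases outIdx_sign hx with h | h
    · simp only at h
      subst h
      rcases Nat.lt_or_ge u (m * (2 ^ k + 2 ^ l)) with h1 | h1
      · exact (s2 h1).ne
      · exact (s1 h1).ne'
    · simp only at h
      have hpos := outIdx_neg_pos hx h
      subst h
      rcases Nat.lt_or_ge u (m * (2 ^ k + 2 ^ l)) with h1 | h1
      · exact (s4 h1).ne'
      · exact (s3 h1 hpos).ne
  rcases Nat.lt_or_gt_of_ne hij with h | h
  · exact key i j h hj
  · rw [orient_swap]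
    exact neg_ne_zero.mpr (key j i h hi)

theorem base_ooi (m i : ℕ) (hm : 3 ≤ m) (hi : i < m) {x y : ℕ × ℝ} (hx : x ∈ outIdx m)
    (hy : y ∈ outIdx m) (hxy : x ≠ y) :
    orient (outPt (bigN m) x) (outPt (bigN m) y) (innerPt m i) ≠ 0 := by
  have hK : (1 : ℝ) ≤ bigK m := by linarith [bigK_ge m hm]
  obtain ⟨h1, h2, h3⟩ := inner_facts m i hm hi
  have hne : x.1 ≠ y.1 := fun h => hxy (outIdx_fst_inj hx hy h)
  rcases Nat.lt_or_gt_of_ne hne with h | h
  · exact orient_far_far_ne (bigN m) (bigK m) hK rfl x.1 y.1 x.2 y.2 (outIdx_sign hx)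
      (outIdx_sign hy) h (outIdx_bound hm hx) (outIdx_bound hm hy) _ h1 h2 h3
  · rw [orient_swap]
    exact neg_ne_zero.mpr (orient_far_far_ne (bigN m) (bigK m) hK rfl y.1 x.1 y.2 x.2
      (outIdx_sign hy) (outIdx_sign hx) h (outIdx_bound hm hy) (outIdx_bound hm hx) _ h1 h2 h3)

theorem base_ooo (m : ℕ) {x y z : ℕ × ℝ} (hx : x ∈ outIdx m) (hy : y ∈ outIdx m)
    (hz : z ∈ outIdx m) (hxy : outPt (bigN m) x ≠ outPt (bigN m) y)
    (hxz : outPt (bigN m) x ≠ outPt (bigN m) z) (hyz : outPt (bigN m) y ≠ outPt (bigN m) z) :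
    orient (outPt (bigN m) x) (outPt (bigN m) y) (outPt (bigN m) z) ≠ 0 := by
  intro h
  rcases circle_line (bigN m) _ _ _ (outer_norm m hx) (outer_norm m hy) (outer_norm m hz)
    hxy h with h1 | h1
  · exact hxz h1.symm
  · exact hyz h1.symm

/-- The configuration is in general position. -/
theorem sharp_noThree (m : ℕ) (hm : 3 ≤ m) : NoThreeCollinear (sharpCfg m) := by
  apply noThree_of_orient
  intro p hp q hq r hr hpq hpr hqr
  unfold sharpCfg at hp hq hr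
  rcases Finset.mem_union.mp hp with hp | hp <;> rcases Finset.mem_union.mp hq with hq | hq <;>
    rcases Finset.mem_union.mp hr with hr | hr
  · obtain ⟨i, hi, rfl⟩ := mem_innerSet.mp hp
    obtain ⟨j, hj, rfl⟩ := mem_innerSet.mp hq
    obtain ⟨k, hk, rfl⟩ := mem_innerSet.mp hr
    exact base_iii m i j k hm (fun h => hpq (by rw [h])) (fun h => hpr (by rw [h]))
      (fun h => hqr (by rw [h]))
  · obtain ⟨i, hi, rfl⟩ := mem_innerSet.mp hp
    obtain ⟨j, hj, rfl⟩ := mem_innerSet.mp hq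
    obtain ⟨z, hz, rfl⟩ := mem_outerSet.mp hr
    exact base_iio m i j hm hi hj (fun h => hpq (by rw [h])) hz
  · obtain ⟨i, hi, rfl⟩ := mem_innerSet.mp hp
    obtain ⟨y, hy, rfl⟩ := mem_outerSet.mp hq
    obtain ⟨k, hk, rfl⟩ := mem_innerSet.mp hr
    rw [← neg_neg (orient _ _ _), ← orient_swap23]
    exact neg_ne_zero.mpr (base_iio m i k hm hi hk (fun h => hpr (by rw [h])) hy)
  · obtain ⟨i, hi, rfl⟩ := mem_innerSet.mp hp
    obtain ⟨y, hy, rfl⟩ := mem_outerSet.mp hq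
    obtain ⟨z, hz, rfl⟩ := mem_outerSet.mp hr
    rw [← orient_cycle]
    exact base_ooi m i hm hi hy hz (fun h => hqr (by rw [h]))
  · obtain ⟨x, hx, rfl⟩ := mem_outerSet.mp hp
    obtain ⟨j, hj, rfl⟩ := mem_innerSet.mp hq
    obtain ⟨k, hk, rfl⟩ := mem_innerSet.mp hr
    rw [orient_cycle, orient_cycle]
    exact base_iio m j k hm hj hk (fun h => hqr (by rw [h])) hx
  · obtain ⟨x, hx, rfl⟩ := mem_outerSet.mp hp
    obtain ⟨j, hj, rfl⟩ := mem_innerSet.mp hq
    obtain ⟨z, hz, rfl⟩ := mem_outerSet.mp hr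
    rw [← neg_neg (orient _ _ _), ← orient_swap23]
    exact neg_ne_zero.mpr (base_ooi m j hm hj hx hz (fun h => hpr (by rw [h])))
  · obtain ⟨x, hx, rfl⟩ := mem_outerSet.mp hp
    obtain ⟨y, hy, rfl⟩ := mem_outerSet.mp hq
    obtain ⟨k, hk, rfl⟩ := mem_innerSet.mp hr
    exact base_ooi m k hm hk hx hy (fun h => hpq (by rw [h]))
  · obtain ⟨x, hx, rfl⟩ := mem_outerSet.mp hp
    obtain ⟨y, hy, rfl⟩ := mem_outerSet.mp hq
    obtain ⟨z, hz, rfl⟩ := mem_outerSet.mp hr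
    exact base_ooo m hx hy hz hpq hpr hqr

end Vale.Agent.Lib.P065
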