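import Mathlib
import Vale.Agent.Lib.P065.Defs
import Vale.Agent.Lib.P065.Geometry
import Vale.Agent.Lib.P065.SharpBasic
import Vale.Agent.Lib.P065.SharpIndex
import Vale.Agent.Lib.P065.SharpConfig
import Vale.Agent.Lib.P065.SharpSet

namespace Vale.Agent.Lib.P065

open Classical

theorem convex_halfplane (a b c : ℝ) : Convex ℝ {z : ℝ × ℝ | a * z.1 + b * z.2 < c} := by
  have hlin : IsLinearMap ℝ (fun z : ℝ × ℝ => a * z.1 + b * z.2) := by
    constructor
    · intro x y; simp only [Prod.fst_add, Prod.snd_add]; ring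
    · intro t x; simp only [Prod.smul_fst, Prod.smul_snd, smul_eq_mul]; ring
  exact convex_halfSpace_lt hlin c

/-- An inner point is a vertex of the convex hull of the inner points. -/
theorem inner_not_in_hull (m i : ℕ) (hm : 3 ≤ m) :
    innerPt m i ∉ convexHull ℝ (((innerSet m).erase (innerPt m i) : Finset (ℝ × ℝ)) :
      Set (ℝ × ℝ)) := by
  have hinj := xin_injective m (by omega : 0 < m)
  intro hmem
  have hsub : (((innerSet m).erase (innerPt m i) : Finset (ℝ × ℝ)) : Set (ℝ × ℝ))
      ⊆ {z : ℝ × ℝ | (2 * xin m i) * z.1 + (-1) * z.2 < xin m i ^ 2} := by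
    intro p hp
    have hp' := Finset.mem_erase.mp (Finset.mem_coe.mp hp)
    obtain ⟨j, _, rfl⟩ := mem_innerSet.mp hp'.2
    have hji : xin m j ≠ xin m i := fun h => hp'.1 (by rw [hinj h])
    have : 0 < (xin m j - xin m i) ^ 2 := by
      have := sub_ne_zero.mpr hji
      positivity
    show (2 * xin m i) * (innerPt m j).1 + (-1) * (innerPt m j).2 < xin m i ^ 2
    unfold innerPt
    simp only
    nlinarith
  have h := convexHull_min hsub (convex_halfplane _ _ _) hmem
  have h' : (2 * xin m i) * (innerPt m i).1 + (-1) * (innerPt m i).2 < xin m i ^ 2 := h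
  unfold innerPt at h'
  simp only at h'
  nlinarith

/-- An outer point is a vertex of the convex hull of the whole configuration. -/
theorem outer_not_in_hull (m : ℕ) (hm : 3 ≤ m) {x : ℕ × ℝ} (hx : x ∈ outIdx m) :
    outPt (bigN m) x ∉ convexHull ℝ (((sharpCfg m).erase (outPt (bigN m) x) :
      Finset (ℝ × ℝ)) : Set (ℝ × ℝ)) := by
  have hN := bigN_pos m hm
  have hq := outer_norm m hx
  set q := outPt (bigN m) x with hqdef
  intro hmem
  have hsub : (((sharpCfg m).erase q : Finset (ℝ × ℝ)) : Set (ℝ × ℝ))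
      ⊆ {z : ℝ × ℝ | q.1 * z.1 + q.2 * z.2 < bigN m ^ 2} := by
    intro p hp
    have hp' := Finset.mem_erase.mp (Finset.mem_coe.mp hp)
    show q.1 * p.1 + q.2 * p.2 < bigN m ^ 2
    unfold sharpCfg at hp'
    rcases Finset.mem_union.mp hp'.2 with h | h
    · obtain ⟨j, hj, rfl⟩ := mem_innerSet.mp h
      obtain ⟨h1, h2, h3⟩ := inner_facts m j hm hj
      have hKN := bigK_sq_lt m hm
      have hq1 : q.1 ≤ bigN m := by
        have : q.1 ^ 2 ≤ bigN m ^ 2 := by nlinarith [sq_nonneg q.2]
        exact le_of_sq_le_sq this hN.le |> fun h => h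
      have hq2 : q.2 ≤ bigN m := by
        have : q.2 ^ 2 ≤ bigN m ^ 2 := by nlinarith [sq_nonneg q.1]
        exact le_of_sq_le_sq this hN.le |> fun h => h
      have e1 : q.1 * (innerPt m j).1 ≤ bigN m * (innerPt m j).1 :=
        mul_le_mul_of_nonneg_right hq1 h1
      have e2 : q.2 * (innerPt m j).2 ≤ bigN m * (innerPt m j).2 :=
        mul_le_mul_of_nonneg_right hq2 h2
      have e3 : bigN m * ((innerPt m j).1 + (innerPt m j).2) ≤ bigN m * bigK m ^ 2 :=
        mul_le_mul_of_nonneg_left h3 hN.le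
      have e4 : bigN m * bigK m ^ 2 < bigN m * bigN m := mul_lt_mul_of_pos_left hKN hN
      nlinarith
    · obtain ⟨y, hy, rfl⟩ := mem_outerSet.mp h
      have hp2 := outer_norm m hy
      have hne : ¬ (q.1 = (outPt (bigN m) y).1 ∧ q.2 = (outPt (bigN m) y).2) :=
        fun hc => hp'.1 (Prod.ext hc.1.symm hc.2.symm)
      have hpos : 0 < (q.1 - (outPt (bigN m) y).1) ^ 2 + (q.2 - (outPt (bigN m) y).2) ^ 2 := by
        by_contra hcon
        push Not at hcon
        have h1 : q.1 - (outPt (bigN m) y).1 = 0 := by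
          nlinarith [sq_nonneg (q.1 - (outPt (bigN m) y).1),
            sq_nonneg (q.2 - (outPt (bigN m) y).2)]
        have h2 : q.2 - (outPt (bigN m) y).2 = 0 := by
          nlinarith [sq_nonneg (q.1 - (outPt (bigN m) y).1),
            sq_nonneg (q.2 - (outPt (bigN m) y).2)]
        exact hne ⟨by linarith, by linarith⟩
      nlinarith
  have h := convexHull_min hsub (convex_halfplane _ _ _) hmem
  have h' : q.1 * q.1 + q.2 * q.2 < bigN m ^ 2 := h
  nlinarith

theorem sharpLayer_lt (m : ℕ) (q : ℝ × ℝ) : sharpLayer m q < 2 := by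
  unfold sharpLayer
  split_ifs <;> norm_num

/-- The labelling is a valid two-layer labelling. -/
theorem sharp_hull (m : ℕ) (hm : 3 ≤ m) : ∀ q ∈ sharpCfg m,
    q ∉ convexHull ℝ {p : ℝ × ℝ | p ∈ sharpCfg m ∧ p ≠ q ∧ sharpLayer m q ≤ sharpLayer m p} := by
  intro q hq
  by_cases hqi : q ∈ innerSet m
  · obtain ⟨i, hi, rfl⟩ := mem_innerSet.mp hqi
    intro hmem
    apply inner_not_in_hull m i hm
    refine convexHull_mono ?_ hmem
    intro p hp
    obtain ⟨_, hp2, hp3⟩ := hp
    have hl : sharpLayer m (innerPt m i) = 1 := by unfold sharpLayer; rw [if_pos hqi]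
    rw [hl] at hp3
    have hpi : p ∈ innerSet m := by
      by_contra hcon
      unfold sharpLayer at hp3
      rw [if_neg hcon] at hp3
      omega
    exact Finset.mem_coe.mpr (Finset.mem_erase.mpr ⟨hp2, hpi⟩)
  · unfold sharpCfg at hq
    have hqo : q ∈ outerSet m := by
      rcases Finset.mem_union.mp hq with h | h
      · exact absurd h hqi
      · exact h
    obtain ⟨x, hx, rfl⟩ := mem_outerSet.mp hqo
    intro hmem
    apply outer_not_in_hull m hm hx
    refine convexHull_mono ?_ hmem
    intro p hp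
    exact Finset.mem_coe.mpr (Finset.mem_erase.mpr ⟨hp.2.1, hp.1⟩)

theorem innerSet_card (m : ℕ) (hm : 3 ≤ m) : (innerSet m).card = m := by
  unfold innerSet
  rw [Finset.card_image_of_injective _ (innerPt_injective m (by omega)), Finset.card_range]

theorem outIdx_card (m : ℕ) (hm : 3 ≤ m) :
    (outIdx m).card = (m - 2) + 2 * (idxI m).card := by
  unfold outIdx
  rw [Finset.card_union_of_disjoint, Finset.card_image_of_injective, Finset.card_image_of_injective,
    Upos_card m (by omega), Uneg_card]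
  · ring
  · intro a b h; simpa using h
  · intro a b h; simpa using h
  · rw [Finset.disjoint_left]
    intro x hx hx'
    obtain ⟨u, _, rfl⟩ := Finset.mem_image.mp hx
    obtain ⟨v, _, hv⟩ := Finset.mem_image.mp hx'
    have : (-1 : ℝ) = 1 := congrArg Prod.snd hv
    norm_num at this

theorem outerSet_card (m : ℕ) (hm : 3 ≤ m) :
    (outerSet m).card = (m - 2) + 2 * (idxI m).card := by
  unfold outerSet
  rw [Finset.card_image_of_injOn (outPt_injOn m hm), outIdx_card m hm]

theorem sharp_card' (m : ℕ) (hm : 3 ≤ m) :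
    (sharpCfg m).card = m + ((m - 2) + 2 * (idxI m).card) := by
  unfold sharpCfg
  rw [Finset.card_union_of_disjoint (inner_outer_disjoint m hm), innerSet_card m hm,
    outerSet_card m hm]

theorem sharp_card (m : ℕ) (hm : 3 ≤ m) : (sharpCfg m).card = m * (m - 1) := by
  rw [sharp_card' m hm, two_mul_card_idxI]
  obtain ⟨n, rfl⟩ : ∃ n, m = n + 3 := ⟨m - 3, by omega⟩
  have h1 : n + 3 - 2 = n + 1 := by omega
  have h2 : n + 3 - 1 = n + 2 := by omega
  rw [h1, h2]
  ring

end Vale.Agent.Lib.P065
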