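import Mathlib
import Vale.Agent.Lib.P065.Defs
import Vale.Agent.Lib.P065.Geometry
import Vale.Agent.Lib.P065.Global
import Vale.Agent.Lib.P065.SharpBasic
import Vale.Agent.Lib.P065.SharpIndex
import Vale.Agent.Lib.P065.SharpConfig
import Vale.Agent.Lib.P065.SharpSet
import Vale.Agent.Lib.P065.SharpHull

namespace Vale.Agent.Lib.P065

open Classical

theorem xin_le_of_le (m : ℕ) (hm : 0 < m) {i j : ℕ} (hij : i ≤ j) : xin m i ≤ xin m j := by
  rcases Nat.eq_or_lt_of_le hij with h | h
  · rw [h]
  · exact (xin_lt m hm h).le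

/-- Side of an inner point with respect to a chord of inner points. -/
theorem inner_side (m i k l : ℕ) (hm : 3 ≤ m) (hkl : k < l) :
    0 < orient (innerPt m k) (innerPt m l) (innerPt m i) ↔ (i < k ∨ l < i) := by
  have hm0 : 0 < m := by omega
  have hx := xin_lt m hm0 hkl
  unfold innerPt
  rw [orient_parabola]
  have e : xin m i ^ 2 - (xin m k + xin m l) * xin m i + xin m k * xin m l
      = (xin m i - xin m k) * (xin m i - xin m l) := by ring
  rw [e]
  constructor
  · intro h
    by_contra hc
    push Not at hc
    have h1 := xin_le_of_le m hm0 hc.1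
    have h2 := xin_le_of_le m hm0 hc.2
    have h3 : (xin m i - xin m k) * (xin m i - xin m l) ≤ 0 :=
      mul_nonpos_of_nonneg_of_nonpos (by linarith) (by linarith)
    have h4 : (xin m l - xin m k) * ((xin m i - xin m k) * (xin m i - xin m l)) ≤ 0 :=
      mul_nonpos_of_nonneg_of_nonpos (by linarith) h3
    linarith
  · rintro (h | h)
    · have h1 := xin_lt m hm0 h
      exact mul_pos (by linarith) (mul_pos_of_neg_of_neg (by linarith) (by linarith))
    · have h1 := xin_lt m hm0 h
      exact mul_pos (by linarith) (mul_pos (by linarith) (by linarith))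

theorem range_filter_card (m k l : ℕ) (hkl : k < l) (hl : l < m) :
    ((Finset.range m).filter (fun i => i < k ∨ l < i)).card = k + (m - 1 - l) := by
  have h : (Finset.range m).filter (fun i => i < k ∨ l < i)
      = Finset.range k ∪ Finset.Ico (l + 1) m := by
    ext i
    simp only [Finset.mem_filter, Finset.mem_range, Finset.mem_union, Finset.mem_Ico]
    omega
  rw [h, Finset.card_union_of_disjoint, Finset.card_range, Nat.card_Ico]
  · omega
  · rw [Finset.disjoint_left]
    intro i hi hi'
    have := Finset.mem_range.mp hi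
    have := (Finset.mem_Ico.mp hi').1
    omega

theorem inner_filter_card (m k l : ℕ) (hm : 3 ≤ m) (hkl : k < l) (hl : l < m) :
    ((innerSet m).filter (fun r => 0 < orient (innerPt m k) (innerPt m l) r)).card
      = k + (m - 1 - l) := by
  unfold innerSet
  rw [Finset.filter_image, Finset.card_image_of_injective _ (innerPt_injective m (by omega))]
  have h : (Finset.range m).filter
      (fun i => 0 < orient (innerPt m k) (innerPt m l) (innerPt m i))
      = (Finset.range m).filter (fun i => i < k ∨ l < i) :=
    Finset.filter_congr (fun i _ => inner_side m i k l hm hkl)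
  rw [h, range_filter_card m k l hkl hl]

/-- Side of an outer point with respect to a chord of inner points. -/
theorem outer_side (m k l : ℕ) (hm : 3 ≤ m) (hkl : k < l) (hl : l < m) {x : ℕ × ℝ}
    (hx : x ∈ outIdx m) :
    0 < orient (innerPt m k) (innerPt m l) (outPt (bigN m) x) ↔
      (x.2 = 1 ∧ m * (2 ^ k + 2 ^ l) ≤ x.1) ∨ (x.2 = -1 ∧ x.1 < m * (2 ^ k + 2 ^ l)) := by
  have hb := outIdx_bound hm hx
  obtain ⟨s1, s2, s3, s4⟩ := orient_chord_far m k l x.1 hm hkl hl hb
  obtain ⟨u, e⟩ := x
  simp only at s1 s2 s3 s4 hb ⊢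
  rcases outIdx_sign hx with h | h
  · simp only at h
    subst h
    constructor
    · intro hpos
      left
      refine ⟨rfl, ?_⟩
      by_contra hc
      push Not at hc
      linarith [s2 hc]
    · rintro (⟨_, h1⟩ | ⟨h1, _⟩)
      · exact s1 h1
      · norm_num at h1
  · simp only at h
    have hpos1 := outIdx_neg_pos hx h
    simp only at hpos1
    subst h
    constructor
    · intro hpos
      right
      refine ⟨rfl, ?_⟩
      by_contra hc
      push Not at hc
      linarith [s3 hc hpos1]
    · rintro (⟨h1, _⟩ | ⟨_, h1⟩)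
      · norm_num at h1
      · exact s4 h1

theorem outIdx_parts_disjoint (m : ℕ) :
    Disjoint ((Upos m).image (fun u => (u, (1 : ℝ)))) ((Uneg m).image (fun u => (u, (-1 : ℝ)))) := by
  rw [Finset.disjoint_left]
  intro x hx hx'
  obtain ⟨u, _, rfl⟩ := Finset.mem_image.mp hx
  obtain ⟨v, _, hv⟩ := Finset.mem_image.mp hx'
  have : (-1 : ℝ) = 1 := congrArg Prod.snd hv
  norm_num at this

theorem outIdx_filter_card (m S : ℕ) :
    ((outIdx m).filter (fun x => (x.2 = 1 ∧ S ≤ x.1) ∨ (x.2 = -1 ∧ x.1 < S))).card
      = ((Upos m).filter (fun u => S ≤ u)).card + ((Uneg m).filter (fun u => u < S)).card := by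
  unfold outIdx
  rw [Finset.filter_union, Finset.card_union_of_disjoint
    (Finset.disjoint_filter_filter (outIdx_parts_disjoint m)),
    Finset.filter_image, Finset.filter_image,
    Finset.card_image_of_injective _ (fun a b h => by simpa using h),
    Finset.card_image_of_injective _ (fun a b h => by simpa using h)]
  congr 2
  · apply Finset.filter_congr
    intro u _
    constructor
    · rintro (⟨_, h⟩ | ⟨h, _⟩)
      · exact h
      · norm_num at h
    · intro h; exact Or.inl ⟨rfl, h⟩
  · apply Finset.filter_congr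
    intro u _
    constructor
    · rintro (⟨h, _⟩ | ⟨_, h⟩)
      · norm_num at h
      · exact h
    · intro h; exact Or.inr ⟨rfl, h⟩

theorem outer_filter_card (m k l : ℕ) (hm : 3 ≤ m) (hkl : k < l) (hl : l < m) :
    ((outerSet m).filter (fun r => 0 < orient (innerPt m k) (innerPt m l) r)).card
      = ((Upos m).filter (fun u => m * (2 ^ k + 2 ^ l) ≤ u)).card
        + ((Uneg m).filter (fun u => u < m * (2 ^ k + 2 ^ l))).card := by
  unfold outerSet
  rw [Finset.filter_image, Finset.card_image_of_injOn
    ((outPt_injOn m hm).mono (by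
      intro x hx
      exact Finset.mem_coe.mpr (Finset.mem_of_mem_filter x (Finset.mem_coe.mp hx))))]
  have h : (outIdx m).filter
      (fun x => 0 < orient (innerPt m k) (innerPt m l) (outPt (bigN m) x))
      = (outIdx m).filter (fun x => (x.2 = 1 ∧ m * (2 ^ k + 2 ^ l) ≤ x.1) ∨
          (x.2 = -1 ∧ x.1 < m * (2 ^ k + 2 ^ l))) :=
    Finset.filter_congr (fun x hx => outer_side m k l hm hkl hl hx)
  rw [h, outIdx_filter_card]

theorem left_card (m k l : ℕ) (hm : 3 ≤ m) (hkl : k < l) (hl : l < m) :
    ((sharpCfg m).filter (fun r => 0 < orient (innerPt m k) (innerPt m l) r)).card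
      = (m - 2) + (idxI m).card := by
  unfold sharpCfg
  rw [Finset.filter_union, Finset.card_union_of_disjoint
    (Finset.disjoint_filter_filter (inner_outer_disjoint m hm)),
    inner_filter_card m k l hm hkl hl, outer_filter_card m k l hm hkl hl]
  have h1 := Upos_filter_card m k l hm hkl hl
  have h2 := Uneg_filter_card m k l hkl hl
  have h3 := Upos_card m (by omega)
  have h4 : ((Upos m).filter (fun u => u < m * (2 ^ k + 2 ^ l))).card
      + ((Upos m).filter (fun u => ¬ u < m * (2 ^ k + 2 ^ l))).card = (Upos m).card :=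
    Finset.card_filter_add_card_filter_not _
  have h5 : (Upos m).filter (fun u => ¬ u < m * (2 ^ k + 2 ^ l))
      = (Upos m).filter (fun u => m * (2 ^ k + 2 ^ l) ≤ u) :=
    Finset.filter_congr (fun u _ => not_lt)
  rw [h5] at h4
  omega

/-- Every chord of the inner points is a halving line of the configuration. -/
theorem chord_halving (m k l : ℕ) (hm : 3 ≤ m) (hkl : k < l) (hl : l < m) :
    IsHalvingPair (sharpCfg m) (innerPt m k) (innerPt m l) := by
  have hk : k < m := by omega
  have hkm : innerPt m k ∈ sharpCfg m :=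
    Finset.mem_union_left _ (mem_innerSet.mpr ⟨k, hk, rfl⟩)
  have hlm : innerPt m l ∈ sharpCfg m :=
    Finset.mem_union_left _ (mem_innerSet.mpr ⟨l, hl, rfl⟩)
  have hne : innerPt m k ≠ innerPt m l := fun h =>
    absurd (innerPt_injective m (by omega) h) (by omega)
  have h1 := left_card m k l hm hkl hl
  have h2 := sharp_card' m hm
  have h3 := left_add_right (sharpCfg m) (sharp_noThree m hm) _ _ hkm hlm hne
  exact ⟨hkm, hlm, hne, by omega, by omega⟩

end Vale.Agent.Lib.P065
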