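import Mathlib
import Vale.Agent.Lib.P065.Defs
import Vale.Agent.Lib.P065.Geometry
import Vale.Agent.Lib.P065.Global
import Vale.Agent.Lib.P065.SharpBasic
import Vale.Agent.Lib.P065.SharpIndex
import Vale.Agent.Lib.P065.SharpConfig
import Vale.Agent.Lib.P065.SharpSet
import Vale.Agent.Lib.P065.SharpHull
import Vale.Agent.Lib.P065.SharpCount

namespace Vale.Agent.Lib.P065

open Classical

theorem inner_deg_inner (m i : ℕ) (hm : 3 ≤ m) (hi : i < m) :
    (innerSet m).filter (fun p => IsHalvingPair (sharpCfg m) (innerPt m i) p)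
      = (innerSet m).erase (innerPt m i) := by
  ext p
  simp only [Finset.mem_filter, Finset.mem_erase]
  constructor
  · rintro ⟨hp, hh⟩
    exact ⟨hh.2.2.1.symm, hp⟩
  · rintro ⟨hne, hp⟩
    refine ⟨hp, ?_⟩
    obtain ⟨j, hj, rfl⟩ := mem_innerSet.mp hp
    have hij : i ≠ j := fun h => hne (by rw [h])
    rcases Nat.lt_or_gt_of_ne hij with h | h
    · exact chord_halving m i j hm h hj
    · exact isHalvingPair_symm _ _ _ (chord_halving m j i hm h hi)

theorem inner_deg_outer (m i : ℕ) (hm : 3 ≤ m) (hi : i < m) :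
    m - 2 ≤ ((outerSet m).filter
      (fun p => IsHalvingPair (sharpCfg m) (innerPt m i) p)).card := by
  have hP := sharp_noThree m hm
  have hqi : innerPt m i ∈ innerSet m := mem_innerSet.mpr ⟨i, hi, rfl⟩
  have hq : innerPt m i ∈ sharpCfg m := Finset.mem_union_left _ hqi
  have hdisj := inner_outer_disjoint m hm
  have hD : (innerSet m).erase (innerPt m i) ⊆ (sharpCfg m).erase (innerPt m i) := by
    intro p hp
    have := Finset.mem_erase.mp hp
    exact Finset.mem_erase.mpr ⟨this.1, Finset.mem_union_left _ this.2⟩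
  have h := local_lemma (sharpCfg m) hP (innerPt m i) hq ((innerSet m).erase (innerPt m i)) hD
    (inner_not_in_hull m i hm)
  have e1 : ((innerSet m).erase (innerPt m i)).filter
      (fun p => IsHalvingPair (sharpCfg m) (innerPt m i) p) = (innerSet m).erase (innerPt m i) := by
    apply Finset.filter_true_of_mem
    intro p hp
    have : p ∈ (innerSet m).filter (fun p => IsHalvingPair (sharpCfg m) (innerPt m i) p) := by
      rw [inner_deg_inner m i hm hi]; exact hp
    exact (Finset.mem_filter.mp this).2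
  have e2 : (sharpCfg m).erase (innerPt m i) \ (innerSet m).erase (innerPt m i) = outerSet m := by
    ext p
    simp only [Finset.mem_sdiff, Finset.mem_erase]
    constructor
    · rintro ⟨⟨hne, hpP⟩, hnot⟩
      rcases Finset.mem_union.mp hpP with h1 | h1
      · exact absurd ⟨hne, h1⟩ hnot
      · exact h1
    · intro hpO
      have hpI : p ∉ innerSet m := Finset.disjoint_right.mp hdisj hpO
      refine ⟨⟨fun h => hpI (h ▸ hqi), Finset.mem_union_right _ hpO⟩, fun h => hpI h.2⟩
  rw [e1, e2, Finset.card_erase_of_mem hqi, innerSet_card m hm] at h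
  omega

/-- Exact number of halving lines of the configuration. -/
theorem sharp_main (m : ℕ) (hm : 3 ≤ m) :
    2 * (halvingEdges (sharpCfg m)).card + 2 * m = 3 * (sharpCfg m).card := by
  have hP := sharp_noThree m hm
  have hdisj := inner_outer_disjoint m hm
  have hn := sharp_card m hm
  have hI := innerSet_card m hm
  have hPcard : (sharpCfg m).card = (innerSet m).card + (outerSet m).card := by
    unfold sharpCfg; exact Finset.card_union_of_disjoint hdisj
  have hub := layer_bound (sharpCfg m) hP 2 (sharpLayer m) (fun q _ => sharpLayer_lt m q)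
    (sharp_hull m hm)
  have hsum : ∑ q ∈ sharpCfg m, (2 - sharpLayer m q)
      = (innerSet m).card + 2 * (outerSet m).card := by
    unfold sharpCfg
    rw [Finset.sum_union hdisj]
    have s1 : ∑ q ∈ innerSet m, (2 - sharpLayer m q) = ∑ _q ∈ innerSet m, 1 :=
      Finset.sum_congr rfl (fun q hq => by unfold sharpLayer; rw [if_pos hq])
    have s2 : ∑ q ∈ outerSet m, (2 - sharpLayer m q) = ∑ _q ∈ outerSet m, 2 :=
      Finset.sum_congr rfl (fun q hq => by
        unfold sharpLayer; rw [if_neg (Finset.disjoint_right.mp hdisj hq)])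
    rw [s1, s2]
    simp [mul_comm]
  have hord := ordered_card (sharpCfg m)
  have hT : ((sharpCfg m ×ˢ sharpCfg m).filter
      (fun x => IsHalvingPair (sharpCfg m) x.1 x.2)).card
      = ∑ q ∈ sharpCfg m, ∑ p ∈ sharpCfg m,
          (if IsHalvingPair (sharpCfg m) q p then 1 else 0) := by
    rw [Finset.card_filter, Finset.sum_product]
  have hrow_inner : ∀ q ∈ innerSet m,
      (m - 1) + (m - 2) ≤ ∑ p ∈ sharpCfg m, (if IsHalvingPair (sharpCfg m) q p then 1 else 0) := by
    intro q hq
    obtain ⟨i, hi, rfl⟩ := mem_innerSet.mp hq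
    have hsplit : ∑ p ∈ sharpCfg m, (if IsHalvingPair (sharpCfg m) (innerPt m i) p then 1 else 0)
        = ∑ p ∈ innerSet m, (if IsHalvingPair (sharpCfg m) (innerPt m i) p then 1 else 0)
          + ∑ p ∈ outerSet m, (if IsHalvingPair (sharpCfg m) (innerPt m i) p then 1 else 0) := by
      unfold sharpCfg
      exact Finset.sum_union hdisj
    rw [hsplit, ← Finset.card_filter, ← Finset.card_filter, inner_deg_inner m i hm hi,
      Finset.card_erase_of_mem hq, hI]
    have := inner_deg_outer m i hm hi
    omega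
  have hrow_outer : ∀ q ∈ outerSet m,
      ∑ p ∈ innerSet m, (if IsHalvingPair (sharpCfg m) q p then 1 else 0)
        ≤ ∑ p ∈ sharpCfg m, (if IsHalvingPair (sharpCfg m) q p then 1 else 0) := by
    intro q _
    apply Finset.sum_le_sum_of_subset
    unfold sharpCfg
    exact Finset.subset_union_left
  have hswap : ∑ q ∈ outerSet m, ∑ p ∈ innerSet m,
      (if IsHalvingPair (sharpCfg m) q p then 1 else 0)
      = ∑ p ∈ innerSet m, ∑ q ∈ outerSet m,
          (if IsHalvingPair (sharpCfg m) p q then 1 else 0) := by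
    rw [Finset.sum_comm]
    apply Finset.sum_congr rfl
    intro p _
    apply Finset.sum_congr rfl
    intro q _
    rw [isHalvingPair_comm]
  have hcol : (innerSet m).card * (m - 2) ≤ ∑ p ∈ innerSet m, ∑ q ∈ outerSet m,
      (if IsHalvingPair (sharpCfg m) p q then 1 else 0) := by
    rw [← smul_eq_mul, ← Finset.sum_const]
    apply Finset.sum_le_sum
    intro p hp
    obtain ⟨i, hi, rfl⟩ := mem_innerSet.mp hp
    rw [← Finset.card_filter]
    exact inner_deg_outer m i hm hi
  have hlow : (innerSet m).card * ((m - 1) + (m - 2)) + (innerSet m).card * (m - 2)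
      ≤ ((sharpCfg m ×ˢ sharpCfg m).filter
        (fun x => IsHalvingPair (sharpCfg m) x.1 x.2)).card := by
    rw [hT]
    have hsplit : ∑ q ∈ sharpCfg m, ∑ p ∈ sharpCfg m,
        (if IsHalvingPair (sharpCfg m) q p then 1 else 0)
        = ∑ q ∈ innerSet m, ∑ p ∈ sharpCfg m,
            (if IsHalvingPair (sharpCfg m) q p then 1 else 0)
          + ∑ q ∈ outerSet m, ∑ p ∈ sharpCfg m,
            (if IsHalvingPair (sharpCfg m) q p then 1 else 0) := by
      exact Finset.sum_union hdisj
    rw [hsplit]
    have h1 : (innerSet m).card * ((m - 1) + (m - 2)) ≤ ∑ q ∈ innerSet m, ∑ p ∈ sharpCfg m,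
        (if IsHalvingPair (sharpCfg m) q p then 1 else 0) := by
      rw [← smul_eq_mul, ← Finset.sum_const]
      exact Finset.sum_le_sum hrow_inner
    have h2 : ∑ q ∈ outerSet m, ∑ p ∈ innerSet m,
        (if IsHalvingPair (sharpCfg m) q p then 1 else 0)
        ≤ ∑ q ∈ outerSet m, ∑ p ∈ sharpCfg m,
          (if IsHalvingPair (sharpCfg m) q p then 1 else 0) :=
      Finset.sum_le_sum hrow_outer
    rw [hswap] at h2
    exact add_le_add h1 (le_trans hcol h2)
  rw [hord, hI] at hlow
  rw [hsum, hI] at hub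
  rw [hI] at hPcard
  have key : m * (m - 2) + m = m * (m - 1) := by
    obtain ⟨n, rfl⟩ : ∃ n, m = n + 3 := ⟨m - 3, by omega⟩
    have h1 : n + 3 - 2 = n + 1 := by omega
    have h2 : n + 3 - 1 = n + 2 := by omega
    rw [h1, h2]; ring
  have key2 : m * ((m - 1) + (m - 2)) = m * (m - 1) + m * (m - 2) := by ring
  rw [key2] at hlow
  omega

theorem sharp_sum (m : ℕ) (hm : 3 ≤ m) :
    ∑ q ∈ sharpCfg m, (2 - sharpLayer m q) = m + 2 * (outerSet m).card := by
  have hdisj := inner_outer_disjoint m hm
  unfold sharpCfg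
  rw [Finset.sum_union hdisj]
  have s1 : ∑ q ∈ innerSet m, (2 - sharpLayer m q) = ∑ _q ∈ innerSet m, 1 :=
    Finset.sum_congr rfl (fun q hq => by unfold sharpLayer; rw [if_pos hq])
  have s2 : ∑ q ∈ outerSet m, (2 - sharpLayer m q) = ∑ _q ∈ outerSet m, 2 :=
    Finset.sum_congr rfl (fun q hq => by
      unfold sharpLayer; rw [if_neg (Finset.disjoint_right.mp hdisj hq)])
  rw [s1, s2]
  simp [mul_comm, innerSet_card m hm]

theorem sharp_inner_layer (m : ℕ) (hm : 3 ≤ m) :
    ((sharpCfg m).filter (fun q => sharpLayer m q = 1)).card = m := by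
  have h : (sharpCfg m).filter (fun q => sharpLayer m q = 1) = innerSet m := by
    ext q
    simp only [Finset.mem_filter]
    constructor
    · rintro ⟨_, h1⟩
      by_contra hc
      unfold sharpLayer at h1
      rw [if_neg hc] at h1
      omega
    · intro hq
      exact ⟨Finset.mem_union_left _ hq, by unfold sharpLayer; rw [if_pos hq]⟩
  rw [h, innerSet_card m hm]

/-- Summary of the extremal two-layer configuration. -/
theorem sharp_summary (m : ℕ) (hm : 3 ≤ m) :
    NoThreeCollinear (sharpCfg m) ∧ (sharpCfg m).card = m * (m - 1) ∧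
      (∀ q ∈ sharpCfg m, sharpLayer m q < 2) ∧
      ((sharpCfg m).filter (fun q => sharpLayer m q = 1)).card = m ∧
      (∀ q ∈ sharpCfg m, q ∉ convexHull ℝ
        {p : ℝ × ℝ | p ∈ sharpCfg m ∧ p ≠ q ∧ sharpLayer m q ≤ sharpLayer m p}) ∧
      2 * (halvingEdges (sharpCfg m)).card + (sharpCfg m).card
        = 2 * ∑ q ∈ sharpCfg m, (2 - sharpLayer m q) ∧
      2 * (halvingEdges (sharpCfg m)).card + 2 * m = 3 * (sharpCfg m).card := by
  have h1 := sharp_main m hm
  have h2 := sharp_sum m hm
  have h3 : (sharpCfg m).card = (innerSet m).card + (outerSet m).card := by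
    unfold sharpCfg; exact Finset.card_union_of_disjoint (inner_outer_disjoint m hm)
  rw [innerSet_card m hm] at h3
  refine ⟨sharp_noThree m hm, sharp_card m hm, fun q _ => sharpLayer_lt m q,
    sharp_inner_layer m hm, sharp_hull m hm, ?_, h1⟩
  rw [h2]
  omega

end Vale.Agent.Lib.P065
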